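import Mathlib

/-!
# The Gauss field `F0`, its two halves `A1`, `A2` and the fields `F1`, `F2`

`C` is a complete ultrametric field, `RatFunc C = C(t)` with the Gauss norm of radius `1`,
`F0 C` its completion.  `A1 C` = closure of `C[t]` (functions on `|t| ≤ 1`), `A2 C` = closure of the
rational functions with all poles in `|t| ≤ 1`, regular at infinity (functions on `|t| > 1`).
`F1 C`, `F2 C` are the subfields of `F0 C` generated by `A1 C`, `A2 C` over `C(t)`.
-/

open Polynomial

universe u

namespace P025H373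

section Gauss

variable (C : Type u) [NormedField C] [IsUltrametricDist C]

/-- The norm of `C` as an absolute value. -/
noncomputable def nv : AbsoluteValue C ℝ where
  toFun x := ‖x‖
  map_mul' := norm_mul
  nonneg' := norm_nonneg
  eq_zero' _ := norm_eq_zero
  add_le' := norm_add_le

@[simp] lemma nv_apply (x : C) : nv C x = ‖x‖ := rfl

lemma nv_na : IsNonarchimedean (nv C) := fun x y => IsUltrametricDist.norm_add_le_max x y

variable {C}

/-- Gauss norm of a polynomial: the maximum of the norms of the coefficients. -/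
noncomputable def gp (P : C[X]) : ℝ := P.gaussNorm (nv C) 1

lemma gp_nonneg (P : C[X]) : 0 ≤ gp P := P.gaussNorm_nonneg _ zero_le_one

@[simp] lemma gp_zero : gp (0 : C[X]) = 0 := gaussNorm_zero _ _

lemma gp_eq_zero {P : C[X]} : gp P = 0 ↔ P = 0 :=
  gaussNorm_eq_zero_iff (nv C) _ (fun _ hx => (nv C).eq_zero.mp hx) one_pos

lemma gp_mul (P Q : C[X]) : gp (P * Q) = gp P * gp Q := gaussNorm_mul (nv_na C) one_pos P Q

lemma norm_coeff_le (P : C[X]) (i : ℕ) : ‖P.coeff i‖ ≤ gp P := by
  simpa [gp] using P.le_gaussNorm (nv C) zero_le_one i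

lemma exists_coeff_eq (P : C[X]) : ∃ i, ‖P.coeff i‖ = gp P := by
  obtain ⟨i, hi⟩ := P.exists_eq_gaussNorm (nv C) 1
  exact ⟨i, by simpa [gp] using hi.symm⟩

lemma gp_le_iff {P : C[X]} {r : ℝ} : gp P ≤ r ↔ ∀ i, ‖P.coeff i‖ ≤ r := by
  refine ⟨fun h i => (norm_coeff_le P i).trans h, fun h => ?_⟩
  obtain ⟨i, hi⟩ := exists_coeff_eq P
  exact hi ▸ h i

lemma gp_lt_iff {P : C[X]} {r : ℝ} : gp P < r ↔ ∀ i, ‖P.coeff i‖ < r := by
  refine ⟨fun h i => (norm_coeff_le P i).trans_lt h, fun h => ?_⟩
  obtain ⟨i, hi⟩ := exists_coeff_eq P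
  exact hi ▸ h i

lemma gp_add_le_max (P Q : C[X]) : gp (P + Q) ≤ max (gp P) (gp Q) :=
  isNonarchimedean_gaussNorm (nv C) (nv_na C) zero_le_one P Q

@[simp] lemma gp_C (a : C) : gp (Polynomial.C a) = ‖a‖ := gaussNorm_C _ _ _

@[simp] lemma gp_one : gp (1 : C[X]) = 1 := by
  rw [← Polynomial.C_1, gp_C, norm_one]

@[simp] lemma gp_X : gp (X : C[X]) = 1 := by
  have := gaussNorm_monomial (nv C) 1 1 (1 : C)
  simpa [gp, ← Polynomial.monomial_one_one_eq_X] using this

@[simp] lemma gp_neg (P : C[X]) : gp (-P) = gp P := by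
  have h : (-P) = Polynomial.C (-1) * P := by simp
  rw [h, gp_mul, gp_C, norm_neg, norm_one, one_mul]

variable (C)

/-- The Gauss norm on polynomials as a multiplicative homomorphism. -/
noncomputable def gpHom : C[X] →*₀ ℝ where
  toFun := gp
  map_zero' := gp_zero
  map_one' := gp_one
  map_mul' := gp_mul

/-- The Gauss norm on `C(t)` as a multiplicative homomorphism. -/
noncomputable def gaussHom : RatFunc C →*₀ ℝ :=
  RatFunc.liftMonoidWithZeroHom (gpHom C) (by
    intro P hP
    rw [Submonoid.mem_comap, mem_nonZeroDivisors_iff_ne_zero]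
    have : P ≠ 0 := nonZeroDivisors.ne_zero hP
    exact fun h => this (gp_eq_zero.mp h))

variable {C}

lemma gaussHom_div (P Q : C[X]) :
    gaussHom C (algebraMap _ _ P / algebraMap _ _ Q) = gp P / gp Q :=
  RatFunc.liftMonoidWithZeroHom_apply_div _ _ P Q

lemma gaussHom_poly (P : C[X]) : gaussHom C (algebraMap _ _ P) = gp P := by
  have := gaussHom_div P 1
  simpa using this

lemma gaussHom_nonneg (f : RatFunc C) : 0 ≤ gaussHom C f := by
  rw [← f.num_div_denom, gaussHom_div]
  exact div_nonneg (gp_nonneg _) (gp_nonneg _)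

lemma gaussHom_eq_zero {f : RatFunc C} : gaussHom C f = 0 ↔ f = 0 := map_eq_zero _

lemma gaussHom_add_le_max (f g : RatFunc C) :
    gaussHom C (f + g) ≤ max (gaussHom C f) (gaussHom C g) := by
  have hf : (algebraMap C[X] (RatFunc C) f.denom) ≠ 0 := RatFunc.algebraMap_ne_zero f.denom_ne_zero
  have hg : (algebraMap C[X] (RatFunc C) g.denom) ≠ 0 := RatFunc.algebraMap_ne_zero g.denom_ne_zero
  have e1 : f = algebraMap C[X] (RatFunc C) (f.num * g.denom) /
      algebraMap C[X] (RatFunc C) (f.denom * g.denom) := by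
    rw [map_mul, map_mul, mul_div_mul_right _ _ hg, f.num_div_denom]
  have e2 : g = algebraMap C[X] (RatFunc C) (f.denom * g.num) /
      algebraMap C[X] (RatFunc C) (f.denom * g.denom) := by
    rw [map_mul, map_mul, mul_div_mul_left _ _ hf, g.num_div_denom]
  have e3 : f + g = algebraMap C[X] (RatFunc C) (f.num * g.denom + f.denom * g.num) /
      algebraMap C[X] (RatFunc C) (f.denom * g.denom) := by
    rw [map_add, add_div, ← e1, ← e2]
  have hd : 0 ≤ gp (f.denom * g.denom) := gp_nonneg _
  rw [e3, gaussHom_div]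
  calc gp (f.num * g.denom + f.denom * g.num) / gp (f.denom * g.denom)
      ≤ max (gp (f.num * g.denom)) (gp (f.denom * g.num)) / gp (f.denom * g.denom) := by
        gcongr; exact gp_add_le_max _ _
    _ = max (gaussHom C f) (gaussHom C g) := by
        rw [← max_div_div_right hd, ← gaussHom_div, ← gaussHom_div, ← e1, ← e2]

variable (C)

/-- The Gauss absolute value on `C(t)`. -/
noncomputable def gauss : AbsoluteValue (RatFunc C) ℝ where
  toFun := gaussHom C
  map_mul' := map_mul _
  nonneg' := gaussHom_nonneg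
  eq_zero' _ := gaussHom_eq_zero
  add_le' f g := (gaussHom_add_le_max f g).trans
    (max_le_add_of_nonneg (gaussHom_nonneg f) (gaussHom_nonneg g))

variable {C}

lemma gauss_div (P Q : C[X]) :
    gauss C (algebraMap _ _ P / algebraMap _ _ Q) = gp P / gp Q := gaussHom_div P Q

lemma gauss_poly (P : C[X]) : gauss C (algebraMap _ _ P) = gp P := gaussHom_poly P

lemma gauss_na : IsNonarchimedean (gauss C) := gaussHom_add_le_max

variable (C)

/-- The completion `F0` of `C(t)` with respect to the Gauss norm. -/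
def F0 : Type u := (gauss C).Completion

noncomputable instance : NormedField (F0 C) :=
  inferInstanceAs (NormedField (UniformSpace.Completion (WithAbs (gauss C))))

instance : CompleteSpace (F0 C) :=
  inferInstanceAs (CompleteSpace (UniformSpace.Completion (WithAbs (gauss C))))

/-- The embedding of `C(t)` in its completion. -/
noncomputable def ιF : RatFunc C →+* F0 C :=
  (UniformSpace.Completion.coeRingHom (α := WithAbs (gauss C))).comp
    ((WithAbs.equiv (gauss C)).symm : RatFunc C →+* WithAbs (gauss C))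

noncomputable instance : Algebra (RatFunc C) (F0 C) := (ιF C).toAlgebra

noncomputable instance : Algebra C (F0 C) := ((ιF C).comp (algebraMap C (RatFunc C))).toAlgebra

instance : IsScalarTower C (RatFunc C) (F0 C) := IsScalarTower.of_algebraMap_eq' rfl

variable {C}

lemma norm_algebraMap (f : RatFunc C) : ‖algebraMap (RatFunc C) (F0 C) f‖ = gauss C f := by
  change ‖((WithAbs.toAbs (gauss C) f : WithAbs (gauss C)) :
    UniformSpace.Completion (WithAbs (gauss C)))‖ = _
  rw [UniformSpace.Completion.norm_coe]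
  rfl

lemma denseRange_algebraMap : DenseRange (algebraMap (RatFunc C) (F0 C)) := by
  have h := UniformSpace.Completion.denseRange_coe (α := WithAbs (gauss C))
  have h2 : Function.Surjective ((WithAbs.equiv (gauss C)).symm) :=
    (WithAbs.equiv (gauss C)).symm.surjective
  exact h.comp h2.denseRange (UniformSpace.Completion.continuous_coe _)

instance : IsUltrametricDist (F0 C) := by
  refine IsUltrametricDist.isUltrametricDist_of_forall_norm_add_le_max_norm fun x y => ?_
  refine denseRange_algebraMap.induction_on₂ (p := fun x y : F0 C => ‖x + y‖ ≤ max ‖x‖ ‖y‖)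
    ?_ ?_ x y
  · exact isClosed_le (continuous_fst.add continuous_snd).norm
      (continuous_fst.norm.max continuous_snd.norm)
  · intro f g
    rw [← map_add, norm_algebraMap, norm_algebraMap, norm_algebraMap]
    exact gauss_na f g

lemma algebraMap_C_eq (a : C) :
    algebraMap C (F0 C) a = algebraMap (RatFunc C) (F0 C) (RatFunc.C a) := rfl

lemma algebraMap_poly_eq (P : C[X]) :
    algebraMap (RatFunc C) (F0 C) (algebraMap C[X] (RatFunc C) P) =
      Polynomial.aeval (algebraMap (RatFunc C) (F0 C) RatFunc.X) P := by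
  rw [← RatFunc.algebraMap_X, Polynomial.aeval_algebraMap_apply,
    Polynomial.aeval_algebraMap_apply, Polynomial.aeval_X_left_apply]

@[simp] lemma norm_algebraMap_C (a : C) : ‖algebraMap C (F0 C) a‖ = ‖a‖ := by
  rw [algebraMap_C_eq, norm_algebraMap]
  have := gauss_poly (Polynomial.C a)
  simpa using this

noncomputable instance : NormedAlgebra C (F0 C) where
  norm_smul_le a x := by
    rw [Algebra.smul_def, norm_mul, norm_algebraMap_C]

variable (C)

/-- The variable `t` of `F0`. -/
noncomputable def tt : F0 C := algebraMap (RatFunc C) (F0 C) RatFunc.X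

/-- Rational functions with all finite poles in the closed unit disc, regular at infinity. -/
noncomputable def pre2 : Subalgebra C (RatFunc C) where
  carrier := {f | ∃ P S : C[X], S.Monic ∧ P.degree ≤ S.degree ∧
    (∀ i, ‖S.coeff i‖ ≤ 1) ∧ f = algebraMap _ _ P / algebraMap _ _ S}
  mul_mem' := by
    rintro f g ⟨P, S, hS, hd, hn, rfl⟩ ⟨P', S', hS', hd', hn', rfl⟩
    refine ⟨P * P', S * S', hS.mul hS', ?_, ?_, ?_⟩
    · rw [degree_mul, degree_mul]; exact add_le_add hd hd'
    · rw [← gp_le_iff, gp_mul]
      exact mul_le_one₀ (gp_le_iff.2 hn) (gp_nonneg _) (gp_le_iff.2 hn')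
    · rw [map_mul, map_mul, mul_div_mul_comm]
  add_mem' := by
    rintro f g ⟨P, S, hS, hd, hn, rfl⟩ ⟨P', S', hS', hd', hn', rfl⟩
    refine ⟨P * S' + S * P', S * S', hS.mul hS', ?_, ?_, ?_⟩
    · refine (degree_add_le _ _).trans (max_le ?_ ?_)
      · rw [degree_mul, degree_mul]; gcongr
      · rw [degree_mul, degree_mul]; gcongr
    · rw [← gp_le_iff, gp_mul]
      exact mul_le_one₀ (gp_le_iff.2 hn) (gp_nonneg _) (gp_le_iff.2 hn')
    · have h1 : (algebraMap C[X] (RatFunc C) S) ≠ 0 := RatFunc.algebraMap_ne_zero hS.ne_zero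
      have h2 : (algebraMap C[X] (RatFunc C) S') ≠ 0 := RatFunc.algebraMap_ne_zero hS'.ne_zero
      rw [map_add, map_mul, map_mul, map_mul, div_add_div _ _ h1 h2]
  algebraMap_mem' a := ⟨Polynomial.C a, 1, monic_one, by
    rw [degree_one]; exact degree_C_le, fun i => by
      rw [Polynomial.coeff_one]; split_ifs <;> simp, by simp⟩

/-- The embedding of `C(t)` in `F0` as a `C`-algebra homomorphism. -/
noncomputable def ιA : RatFunc C →ₐ[C] F0 C := IsScalarTower.toAlgHom C (RatFunc C) (F0 C)

/-- Functions on the closed disc `|t| ≤ 1`: the closure of `C[t]`. -/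
noncomputable def A1 : Subalgebra C (F0 C) := (Algebra.adjoin C {tt C}).topologicalClosure

/-- Functions on `|t| > 1` (including infinity): the closure of `pre2 C`. -/
noncomputable def A2 : Subalgebra C (F0 C) := ((pre2 C).map (ιA C)).topologicalClosure

/-- The fraction field of `A1`. -/
noncomputable def F1 : IntermediateField (RatFunc C) (F0 C) :=
  IntermediateField.adjoin (RatFunc C) (A1 C : Set (F0 C))

/-- The fraction field of `A2`. -/
noncomputable def F2 : IntermediateField (RatFunc C) (F0 C) :=
  IntermediateField.adjoin (RatFunc C) (A2 C : Set (F0 C))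

end Gauss

end P025H373
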