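import Vale.Agent.P025.R2.H373.Gauss5

/-!
# (1.5) `GL_n(F0) = GL_n(F1) GL_n(F2)`
-/

open Polynomial Filter Topology

universe u

namespace P025H373

section MatNorm

variable {K : Type*} [NormedField K] [IsUltrametricDist K]
variable {n : Type*} [Fintype n] [DecidableEq n]

/-- The sup norm on matrices over an ultrametric field makes them a normed ring. -/
@[reducible] noncomputable def matRing (K : Type*) [NormedField K] [IsUltrametricDist K]
    (n : Type*) [Fintype n] [DecidableEq n] : NormedRing (Matrix n n K) :=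
  { Matrix.normedAddCommGroup, (inferInstance : Ring (Matrix n n K)) with
    dist_eq := fun x y => (Matrix.normedAddCommGroup (m := n) (n := n) (α := K)).dist_eq x y
    norm_mul_le := by
      intro A B
      let := Matrix.normedAddCommGroup (m := n) (n := n) (α := K)
      change ‖A * B‖ ≤ ‖A‖ * ‖B‖
      rw [Matrix.norm_le_iff (by positivity)]
      intro i j
      rw [Matrix.mul_apply]
      refine IsUltrametricDist.norm_sum_le_of_forall_le_of_nonneg (by positivity) fun k _ => ?_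
      rw [norm_mul]
      exact mul_le_mul (Matrix.norm_entry_le_entrywise_sup_norm A)
        (Matrix.norm_entry_le_entrywise_sup_norm B) (norm_nonneg _) (norm_nonneg _) }

attribute [local instance] matRing

lemma matNorm_le_iff {r : ℝ} (hr : 0 ≤ r) {A : Matrix n n K} :
    ‖A‖ ≤ r ↔ ∀ i j, ‖A i j‖ ≤ r := Matrix.norm_le_iff hr

lemma matNorm_entry (A : Matrix n n K) (i j : n) : ‖A i j‖ ≤ ‖A‖ :=
  Matrix.norm_entry_le_entrywise_sup_norm A

lemma mat_completeSpace [CompleteSpace K] :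
    @CompleteSpace (Matrix n n K) (matRing K n).toMetricSpace.toPseudoMetricSpace.toUniformSpace :=
  inferInstanceAs (CompleteSpace (n → n → K))

lemma mat_ultra : IsUltrametricDist (Matrix n n K) :=
  inferInstanceAs (IsUltrametricDist (n → n → K))

lemma mat_normOne [Nonempty n] : NormOneClass (Matrix n n K) := by
  constructor
  refine le_antisymm ?_ ?_
  · rw [matNorm_le_iff zero_le_one]
    intro i j
    rw [Matrix.one_apply]
    split_ifs <;> simp
  · obtain ⟨i⟩ := ‹Nonempty n›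
    have := matNorm_entry (1 : Matrix n n K) i i
    rwa [Matrix.one_apply_eq, norm_one] at this

attribute [local instance] mat_completeSpace mat_ultra mat_normOne

lemma isClosed_matrix (S : Subring K) (hS : IsClosed (S : Set K)) :
    IsClosed ((S.matrix : Subring (Matrix n n K)) : Set (Matrix n n K)) := by
  have : ((S.matrix : Subring (Matrix n n K)) : Set (Matrix n n K)) =
      ⋂ i : n, ⋂ j : n, {A | A i j ∈ S} := by
    ext A
    simp only [Set.mem_iInter, Set.mem_ofPred_eq]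
    rfl
  rw [this]
  refine isClosed_iInter fun i => isClosed_iInter fun j => ?_
  exact hS.preimage ((continuous_apply j).comp (continuous_apply i))

/-- Multiplicative splitting of matrices near `1`. -/
theorem exists_mat_split [CompleteSpace K] [Nonempty n] (B₁ B₂ : Subring K)
    (h₁ : IsClosed (B₁ : Set K)) (h₂ : IsClosed (B₂ : Set K))
    (hs : ∀ a : K, ∃ b₁ ∈ B₁, ∃ b₂ ∈ B₂, b₁ + b₂ = a ∧ ‖b₁‖ ≤ ‖a‖ ∧ ‖b₂‖ ≤ ‖a‖)
    {u : Matrix n n K} (hu : ‖u - 1‖ < 1) :
    ∃ P Q : Matrix n n K, (∀ i j, P i j ∈ B₁) ∧ (∀ i j, Q i j ∈ B₂) ∧ P * Q = u ∧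
      IsUnit P ∧ IsUnit Q ∧ ‖P - 1‖ ≤ ‖u - 1‖ ∧ ‖Q - 1‖ ≤ ‖u - 1‖ := by
  obtain ⟨P, hP, Q, hQ, hPQ, hP1, hQ1⟩ := exists_mul_split (A := Matrix n n K) B₁.matrix B₂.matrix
    (isClosed_matrix _ h₁) (isClosed_matrix _ h₂) (fun a => by
      choose b₁ hb₁ b₂ hb₂ hb n₁ n₂ using fun i j => hs (a i j)
      refine ⟨Matrix.of b₁, fun i j => hb₁ i j, Matrix.of b₂, fun i j => hb₂ i j, ?_, ?_, ?_⟩
      · ext i j
        exact hb i j
      · rw [matNorm_le_iff (norm_nonneg _)]
        exact fun i j => (n₁ i j).trans (matNorm_entry a i j)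
      · rw [matNorm_le_iff (norm_nonneg _)]
        exact fun i j => (n₂ i j).trans (matNorm_entry a i j)) hu
  refine ⟨P, Q, hP, hQ, hPQ, ?_, ?_, hP1, hQ1⟩
  · obtain ⟨y, -, h1, h2, -⟩ := exists_inv_mem (A := Matrix n n K) ⊤ isClosed_univ
      (x := P - 1) (Subring.mem_top _) (hP1.trans_lt hu)
    rw [add_sub_cancel] at h1 h2
    exact ⟨⟨P, y, h1, h2⟩, rfl⟩
  · obtain ⟨y, -, h1, h2, -⟩ := exists_inv_mem (A := Matrix n n K) ⊤ isClosed_univ
      (x := Q - 1) (Subring.mem_top _) (hQ1.trans_lt hu)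
    rw [add_sub_cancel] at h1 h2
    exact ⟨⟨Q, y, h1, h2⟩, rfl⟩

/-- Every invertible matrix over `K` is (invertible matrix over a dense subfield) * (near `1`). -/
theorem exists_dense_mul [CompleteSpace K] [Nonempty n] {k : Type*} [Field k] (f : k →+* K)
    (hf : DenseRange f) {g : Matrix n n K} (hg : IsUnit g) :
    ∃ (g₀ : Matrix n n k) (e : Matrix n n K), IsUnit g₀ ∧ ‖e - 1‖ < 1 ∧ g = g₀.map f * e := by
  obtain ⟨G, rfl⟩ := hg
  set gi : Matrix n n K := ((G⁻¹ : (Matrix n n K)ˣ) : Matrix n n K) with hgi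
  set ε : ℝ := (‖gi‖ + 1)⁻¹ with hε
  have hε0 : 0 < ε := by positivity
  have hap : ∀ i j, ∃ c : k, ‖(G : Matrix n n K) i j - f c‖ < ε := by
    intro i j
    obtain ⟨c, hc⟩ := Metric.denseRange_iff.mp hf ((G : Matrix n n K) i j) ε hε0
    exact ⟨c, by rwa [← dist_eq_norm]⟩
  choose c hc using hap
  set g₀ : Matrix n n k := Matrix.of c with hg₀
  have hd : ‖(G : Matrix n n K) - g₀.map f‖ ≤ ε := by
    rw [matNorm_le_iff hε0.le]
    exact fun i j => (hc i j).le
  have hs : ‖gi * (g₀.map f - G)‖ < 1 := by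
    refine (norm_mul_le _ _).trans_lt ?_
    rw [norm_sub_rev] at hd
    calc ‖gi‖ * ‖g₀.map f - G‖ ≤ ‖gi‖ * ε := by gcongr
      _ < (‖gi‖ + 1) * ε := by gcongr; linarith
      _ = 1 := by rw [hε]; exact mul_inv_cancel₀ (by positivity)
  obtain ⟨y, -, h1, h2, h3⟩ := exists_inv_mem (A := Matrix n n K) ⊤ isClosed_univ
      (x := gi * (g₀.map f - G)) (Subring.mem_top _) hs
  have e1 : 1 + gi * (g₀.map f - (G : Matrix n n K)) = gi * g₀.map f := by
    rw [mul_sub, hgi, Units.inv_mul]; abel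
  rw [e1] at h1 h2
  -- `gi * g₀` is invertible with inverse `y`
  have e2 : g₀.map f * y = G := by
    have := congrArg (fun z => (G : Matrix n n K) * z) h1
    simp only [mul_one] at this
    rwa [← mul_assoc, ← mul_assoc, hgi, Units.mul_inv, one_mul] at this
  have hu : IsUnit (g₀.map f) := by
    have h4 : IsUnit y := ⟨⟨y, gi * g₀.map f, h2, h1⟩, rfl⟩
    have h5 : IsUnit (g₀.map f * y) := by rw [e2]; exact G.isUnit
    obtain ⟨Y, rfl⟩ := h4
    exact (Units.isUnit_mul_units _ _).mp h5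
  refine ⟨g₀, y, ?_, h3.trans_lt hs, e2.symm⟩
  rw [Matrix.isUnit_iff_isUnit_det] at hu ⊢
  have : (g₀.map f).det = f g₀.det := (RingHom.map_det f g₀).symm
  rw [this] at hu
  rw [isUnit_iff_ne_zero] at hu ⊢
  intro h
  rw [h, map_zero] at hu
  exact hu rfl

end MatNorm

section GLn

variable {C : Type u} [NormedField C] [IsUltrametricDist C] [CompleteSpace C] [IsAlgClosed C]

/-- (1.5) for `GL_n` -/
theorem exists_GL_mul {n : Type*} [Fintype n] [DecidableEq n]
    (g : Matrix n n (F0 C)) (hg : IsUnit g) :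
    ∃ (a : Matrix n n (F1 C)) (b : Matrix n n (F2 C)), IsUnit a ∧ IsUnit b ∧
      g = a.map (algebraMap (F1 C) (F0 C)) * b.map (algebraMap (F2 C) (F0 C)) := by
  rcases isEmpty_or_nonempty n with hn | hn
  · exact ⟨1, 1, isUnit_one, isUnit_one, Subsingleton.elim _ _⟩
  let := matRing (F0 C) n
  obtain ⟨g₀, e, hg₀, he, hge⟩ := exists_dense_mul (algebraMap (RatFunc C) (F0 C))
    denseRange_algebraMap hg
  obtain ⟨P, Q, hP, hQ, hPQ, hPu, hQu, -, -⟩ := exists_mat_split (K := F0 C) (A1 C).toSubring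
    (A2 C).toSubring isClosed_A1 isClosed_A2 (fun a => by
      obtain ⟨b₁, h1, b₂, h2, -, h3⟩ := exists_split a
      exact ⟨b₁, h1, b₂, h2, h3⟩) he
  set P' : Matrix n n (F1 C) := Matrix.of fun i j => ⟨P i j, A1_le_F1 (hP i j)⟩ with hP'
  set Q' : Matrix n n (F2 C) := Matrix.of fun i j => ⟨Q i j, A2_le_F2 (hQ i j)⟩ with hQ'
  have eP : P'.map (algebraMap (F1 C) (F0 C)) = P := by ext i j; rfl
  have eQ : Q'.map (algebraMap (F2 C) (F0 C)) = Q := by ext i j; rfl
  have uni : ∀ (L : IntermediateField (RatFunc C) (F0 C)) (M : Matrix n n L),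
      IsUnit (M.map (algebraMap L (F0 C))) → IsUnit M := by
    intro L M hM
    rw [Matrix.isUnit_iff_isUnit_det] at hM ⊢
    have : (M.map (algebraMap L (F0 C))).det = algebraMap L (F0 C) M.det :=
      (RingHom.map_det (algebraMap L (F0 C)) M).symm
    rw [this] at hM
    rw [isUnit_iff_ne_zero] at hM ⊢
    intro h
    rw [h, map_zero] at hM
    exact hM rfl
  refine ⟨g₀.map (algebraMap (RatFunc C) (F1 C)) * P', Q', ?_, ?_, ?_⟩
  · refine IsUnit.mul ?_ (uni _ _ (by rw [eP]; exact hPu))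
    exact hg₀.map (algebraMap (RatFunc C) (F1 C)).mapMatrix
  · exact uni _ _ (by rw [eQ]; exact hQu)
  · rw [Matrix.map_mul, eP, eQ, Matrix.mul_assoc, hPQ, hge]
    congr 1

end GLn

end P025H373
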