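import Vale.Agent.P025.R2.H373.Gauss6
import Vale.Agent.P025.R2.H632.WindSpec
import Vale.Agent.P025.R2.H602.Roots
import Vale.Agent.P025.R2.H602.Res
import Vale.Agent.P025.R2.H602.Sub

/-!
# G-GAUSS: everything of section 1 (helper373, helper602, helper632)
-/

open Polynomial

universe u

namespace P025H373

variable {C : Type u} [NontriviallyNormedField C] [IsUltrametricDist C] [CompleteSpace C]
  [IsAlgClosed C]

theorem res_inv_sub (a : C) (ha : ‖a‖ ≤ 1) :
    res C (tt C - algebraMap C (F0 C) a)⁻¹ = 1 := by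
  have e : tt C - algebraMap C (F0 C) a = aeval (tt C) (X - Polynomial.C a) := by
    rw [map_sub, aeval_X, aeval_C]
  have hne : aeval (tt C) (X - Polynomial.C a) ≠ 0 := fun h => X_sub_C_ne_zero a (aeval_inj.mp h)
  have htne : tt C ≠ 0 := tt_ne_zero
  have hco : ∀ i, ‖(X - Polynomial.C a).coeff i‖ ≤ 1 := by
    rw [← gp_le_iff, gp_X_sub_C, max_eq_left ha]
  have hdeg : (X : C[X]).degree ≤ (X - Polynomial.C a).degree := by
    rw [degree_X_sub_C, degree_X]
  have hmem : tt C / aeval (tt C) (X - Polynomial.C a) ∈ A2 C := by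
    have h := div_mem_A2 (monic_X_sub_C a) hdeg hco
    rwa [aeval_X] at h
  have h1 := res_A2 (C := C) ⟨_, hmem⟩
  have h2 := evInf_div (C := C) X (X - Polynomial.C a) (monic_X_sub_C a) hdeg hco ⟨_, hmem⟩
    (by rw [aeval_X])
  rw [h2, natDegree_X_sub_C, coeff_X_one] at h1
  rw [e, ← h1]
  congr 1
  change (aeval (tt C) (X - Polynomial.C a))⁻¹ =
    (tt C)⁻¹ * (tt C / aeval (tt C) (X - Polynomial.C a))
  rw [div_eq_mul_inv, ← mul_assoc, inv_mul_cancel₀ htne, one_mul]

theorem res_logDer {x : F0 C} (h0 : x ≠ 0) : res C (der C x / x) = (wind C x : C) :=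
  P025H632.res_logDer_of (der C) (res C) der_tt norm_der_le norm_res_le res_inv_sub
    (fun _ hx => res_A1 hx) h0

end P025H373
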