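import Vale.Agent.P025.R2.H373.Defs

/-!
# Splitting of rational functions along the unit circle
-/

open Polynomial

universe u

namespace P025H373

section Poly

variable {C : Type u} [NormedField C] [IsUltrametricDist C]

lemma gp_sub_le_max (P Q : C[X]) : gp (P - Q) ≤ max (gp P) (gp Q) := by
  have := gp_add_le_max P (-Q)
  rwa [gp_neg, ← sub_eq_add_neg] at this

lemma gp_monic_of_le {S : C[X]} (hS : S.Monic) (h : gp S ≤ 1) : gp S = 1 := by
  refine le_antisymm h ?_
  have := norm_coeff_le S S.natDegree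
  rwa [hS.coeff_natDegree, norm_one] at this

lemma gp_X_pow (n : ℕ) : gp (X ^ n : C[X]) = 1 := by
  induction n with
  | zero => simp
  | succ n ih => rw [pow_succ, gp_mul, ih, gp_X, one_mul]

/-- Division with remainder by a monic polynomial of norm one does not increase norms. -/
lemma exists_div {S : C[X]} (hS : S.Monic) (h1 : gp S ≤ 1) (A : C[X]) :
    ∃ q r : C[X], A = q * S + r ∧ r.degree < S.degree ∧ gp q ≤ gp A ∧ gp r ≤ gp A := by
  have hS0 : S ≠ 0 := hS.ne_zero
  induction hn : A.natDegree using Nat.strong_induction_on generalizing A with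
  | _ n ih =>
    by_cases hd : A.degree < S.degree
    · exact ⟨0, A, by simp, hd, by simpa using gp_nonneg A, le_rfl⟩
    · rw [not_lt] at hd
      have hA0 : A ≠ 0 := by
        rintro rfl
        rw [degree_zero, le_bot_iff, degree_eq_bot] at hd
        exact hS0 hd
      have hnd : S.natDegree ≤ A.natDegree := natDegree_le_natDegree hd
      set k := Polynomial.C A.leadingCoeff * X ^ (A.natDegree - S.natDegree) with hk
      have hgk : gp k ≤ gp A := by
        rw [hk, gp_mul, gp_C, gp_X_pow, mul_one]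
        exact norm_coeff_le A _
      set A' := A - k * S with hA'
      have hgA' : gp A' ≤ gp A := by
        refine (gp_sub_le_max _ _).trans (max_le le_rfl ?_)
        rw [gp_mul]
        calc gp k * gp S ≤ gp A * 1 := mul_le_mul hgk h1 (gp_nonneg _) (gp_nonneg _)
          _ = gp A := mul_one _
      have hkS : (k * S).leadingCoeff = A.leadingCoeff := by
        rw [hk, leadingCoeff_mul, leadingCoeff_mul, hS.leadingCoeff, leadingCoeff_X_pow,
          leadingCoeff_C, mul_one, mul_one]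
      have hlc : A.leadingCoeff ≠ 0 := leadingCoeff_ne_zero.mpr hA0
      have hdk : (k * S).degree = A.degree := by
        rw [hk, degree_mul, degree_mul, degree_C hlc, degree_X_pow, zero_add,
          degree_eq_natDegree hS0, degree_eq_natDegree hA0, ← Nat.cast_add,
          Nat.sub_add_cancel hnd]
      by_cases hA'0 : A' = 0
      · refine ⟨k, 0, ?_, ?_, hgk, ?_⟩
        · rw [hA', sub_eq_zero] at hA'0; rw [add_zero]; exact hA'0
        · rw [degree_zero]; exact bot_lt_iff_ne_bot.mpr (by simpa [degree_eq_bot] using hS0)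
        · simpa using gp_nonneg A
      · have hdlt : A'.degree < A.degree := degree_sub_lt_left hdk.symm hA0 hkS.symm
        have hlt : A'.natDegree < n := by
          rw [← hn]; exact natDegree_lt_natDegree hA'0 hdlt
        obtain ⟨q, r, hqr, hr, hq1, hr1⟩ := ih _ hlt A' rfl
        refine ⟨q + k, r, ?_, hr, ?_, hr1.trans hgA'⟩
        · have : A = A' + k * S := by rw [hA']; ring
          rw [this, hqr]; ring
        · exact (gp_add_le_max _ _).trans (max_le (hq1.trans hgA') hgk)

lemma max_le_gp_mul_add {S P R : C[X]} (hS : S.Monic) (h1 : gp S ≤ 1)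
    (hR : R.degree < S.degree) : max (gp P) (gp R) ≤ gp (P * S + R) := by
  obtain ⟨q, r, hqr, hr, hq1, hr1⟩ := exists_div hS h1 (P * S + R)
  have e1 := Polynomial.div_modByMonic_unique (f := P * S + R) q r hS
    ⟨by rw [hqr]; ring, hr⟩
  have e2 := Polynomial.div_modByMonic_unique (f := P * S + R) P R hS ⟨by ring, hR⟩
  have hq : q = P := e1.1.symm.trans e2.1
  have hr' : r = R := e1.2.symm.trans e2.2
  rw [hq] at hq1; rw [hr'] at hr1
  exact max_le hq1 hr1

/-- the key norm estimate -/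
lemma max_le_gp {S P R Q : C[X]} (hS : S.Monic) (h1 : gp S ≤ 1) (hQ : gp (Q - 1) < 1)
    (hR : R.degree < S.degree) : max (gp P) (gp R) ≤ gp (P * S + R * Q) := by
  have h2 := max_le_gp_mul_add (P := P) hS h1 hR
  by_cases hR0 : R = 0
  · simpa [hR0] using h2
  have hR0' : 0 < gp R := lt_of_le_of_ne (gp_nonneg R) fun h => hR0 (gp_eq_zero.mp h.symm)
  have h3 : gp (R * (Q - 1)) < gp (P * S + R) := by
    rw [gp_mul]
    calc gp R * gp (Q - 1) < gp R * 1 := by gcongr
      _ = gp R := mul_one _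
      _ ≤ _ := (le_max_right _ _).trans h2
  have h4 : gp (P * S + R) ≤ max (gp (P * S + R * Q)) (gp (R * (Q - 1))) := by
    have : P * S + R = (P * S + R * Q) - R * (Q - 1) := by ring
    rw [this]; exact gp_sub_le_max _ _
  rcases le_max_iff.mp h4 with h | h
  · exact h2.trans h
  · exact absurd h (not_le.mpr h3)

lemma gp_eq_one_of_sub_lt {Q : C[X]} (hQ : gp (Q - 1) < 1) : gp Q = 1 := by
  refine le_antisymm ?_ ?_
  · have : Q = (Q - 1) + 1 := by ring
    rw [this]
    exact (gp_add_le_max _ _).trans (max_le hQ.le gp_one.le)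
  · by_contra h
    rw [not_le] at h
    have h2 : gp (1 : C[X]) ≤ max (gp Q) (gp (Q - 1)) := by
      have : (1 : C[X]) = Q - (Q - 1) := by ring
      calc gp (1 : C[X]) = gp (Q - (Q - 1)) := by rw [← this]
        _ ≤ _ := gp_sub_le_max _ _
    rw [gp_one] at h2
    exact absurd h2 (not_le.mpr (max_lt h hQ))

variable (C)

/-- rational functions `P / Q`, `|Q - 1| < 1`. -/
def pre1 : AddSubgroup (RatFunc C) where
  carrier := {f | ∃ P Q : C[X], gp (Q - 1) < 1 ∧ f = algebraMap _ _ P / algebraMap _ _ Q}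
  zero_mem' := ⟨0, 1, by simp, by simp⟩
  neg_mem' := by
    rintro f ⟨P, Q, hQ, rfl⟩
    exact ⟨-P, Q, hQ, by rw [map_neg, neg_div]⟩
  add_mem' := by
    rintro f g ⟨P, Q, hQ, rfl⟩ ⟨P', Q', hQ', rfl⟩
    have hq : gp Q = 1 := gp_eq_one_of_sub_lt hQ
    have hq' : gp Q' = 1 := gp_eq_one_of_sub_lt hQ'
    have h0 : Q ≠ 0 := by rintro rfl; simp at hq
    have h0' : Q' ≠ 0 := by rintro rfl; simp at hq'
    refine ⟨P * Q' + Q * P', Q * Q', ?_, ?_⟩
    · have : Q * Q' - 1 = Q * (Q' - 1) + (Q - 1) := by ring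
      rw [this]
      refine (gp_add_le_max _ _).trans_lt (max_lt ?_ hQ)
      rw [gp_mul, hq, one_mul]; exact hQ'
    · have h1 : (algebraMap C[X] (RatFunc C) Q) ≠ 0 := RatFunc.algebraMap_ne_zero h0
      have h2 : (algebraMap C[X] (RatFunc C) Q') ≠ 0 := RatFunc.algebraMap_ne_zero h0'
      rw [map_add, map_mul, map_mul, map_mul, div_add_div _ _ h1 h2]

/-- rational functions `R / S`, `S` monic of norm one, `deg R < deg S`. -/
def pre2z : AddSubgroup (RatFunc C) where
  carrier := {f | ∃ P S : C[X], S.Monic ∧ P.degree < S.degree ∧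
    gp S ≤ 1 ∧ f = algebraMap _ _ P / algebraMap _ _ S}
  zero_mem' := ⟨0, 1, monic_one, by simp, by simp, by simp⟩
  neg_mem' := by
    rintro f ⟨P, Q, hQ, hd, h1, rfl⟩
    exact ⟨-P, Q, hQ, by rwa [degree_neg], h1, by rw [map_neg, neg_div]⟩
  add_mem' := by
    rintro f g ⟨P, S, hS, hd, hn, rfl⟩ ⟨P', S', hS', hd', hn', rfl⟩
    have hb : S.degree ≠ ⊥ := by simpa [degree_eq_bot] using hS.ne_zero
    have hb' : S'.degree ≠ ⊥ := by simpa [degree_eq_bot] using hS'.ne_zero
    refine ⟨P * S' + S * P', S * S', hS.mul hS', ?_, ?_, ?_⟩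
    · refine (degree_add_le _ _).trans_lt (max_lt ?_ ?_)
      · rw [degree_mul, degree_mul]
        exact WithBot.add_lt_add_right hb' hd
      · rw [degree_mul, degree_mul]
        exact WithBot.add_lt_add_left hb hd'
    · rw [gp_mul]
      exact mul_le_one₀ hn (gp_nonneg _) hn'
    · have h1 : (algebraMap C[X] (RatFunc C) S) ≠ 0 := RatFunc.algebraMap_ne_zero hS.ne_zero
      have h2 : (algebraMap C[X] (RatFunc C) S') ≠ 0 := RatFunc.algebraMap_ne_zero hS'.ne_zero
      rw [map_add, map_mul, map_mul, map_mul, div_add_div _ _ h1 h2]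

variable {C}

lemma max_le_gauss_add {f g : RatFunc C} (hf : f ∈ pre1 C) (hg : g ∈ pre2z C) :
    max (gauss C f) (gauss C g) ≤ gauss C (f + g) := by
  obtain ⟨P, Q, hQ, rfl⟩ := hf
  obtain ⟨R, S, hS, hd, hn, rfl⟩ := hg
  have hq : gp Q = 1 := gp_eq_one_of_sub_lt hQ
  have hs : gp S = 1 := gp_monic_of_le hS hn
  have h0 : Q ≠ 0 := by rintro rfl; simp at hq
  have h1 : (algebraMap C[X] (RatFunc C) Q) ≠ 0 := RatFunc.algebraMap_ne_zero h0
  have h2 : (algebraMap C[X] (RatFunc C) S) ≠ 0 := RatFunc.algebraMap_ne_zero hS.ne_zero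
  rw [gauss_div, gauss_div, hq, hs, div_one, div_one, div_add_div _ _ h1 h2, ← map_mul,
    ← map_mul, ← map_mul, ← map_add, gauss_div, gp_mul Q S, hq, hs, one_mul, div_one]
  have := max_le_gp (P := P) hS hn hQ hd
  rwa [mul_comm R Q] at this

end Poly

section AlgClosed

variable {C : Type u} [NormedField C] [IsUltrametricDist C] [IsAlgClosed C]

lemma gp_X_sub_C (a : C) : gp (X - Polynomial.C a) = max 1 ‖a‖ := by
  refine le_antisymm ?_ (max_le ?_ ?_)
  · refine (gp_sub_le_max _ _).trans ?_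
    rw [gp_X, gp_C]
  · have := norm_coeff_le (X - Polynomial.C a) 1
    simpa using this
  · have := norm_coeff_le (X - Polynomial.C a) 0
    simpa using this

omit [IsAlgClosed C] in
lemma norm_eval_le (P : C[X]) {a : C} (ha : ‖a‖ ≤ 1) : ‖P.eval a‖ ≤ gp P := by
  rw [eval_eq_sum_range]
  refine IsUltrametricDist.norm_sum_le_of_forall_le_of_nonneg (gp_nonneg P) fun i _ => ?_
  rw [norm_mul, norm_pow]
  calc ‖P.coeff i‖ * ‖a‖ ^ i ≤ gp P * 1 :=
        mul_le_mul (norm_coeff_le P i) (pow_le_one₀ (norm_nonneg _) ha) (by positivity)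
          (gp_nonneg P)
    _ = gp P := mul_one _

omit [IsAlgClosed C] in
lemma eval_ne_zero_of_gp {Q : C[X]} (hQ : gp (Q - 1) < 1) {a : C} (ha : ‖a‖ ≤ 1) :
    Q.eval a ≠ 0 := by
  intro h
  have := norm_eval_le (Q - 1) ha
  rw [eval_sub, h, eval_one, zero_sub, norm_neg, norm_one] at this
  exact absurd this (not_le.mpr hQ)

/-- Every polynomial is `c * S * Q`, `S` monic with roots in the closed unit disc (hence of
norm `1`), `|Q - 1| < 1`. -/
lemma exists_factor (D : C[X]) (hD : D ≠ 0) : ∃ (c : C) (S Q : C[X]), c ≠ 0 ∧ S.Monic ∧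
    gp S ≤ 1 ∧ (∀ a ∈ S.roots, ‖a‖ ≤ 1) ∧ gp (Q - 1) < 1 ∧ IsCoprime S Q ∧
    (∀ a, Q.IsRoot a → 1 < ‖a‖) ∧ D = Polynomial.C c * (S * Q) := by
  induction hn : D.natDegree generalizing D with
  | zero =>
    rw [natDegree_eq_zero] at hn
    obtain ⟨c, rfl⟩ := hn
    refine ⟨c, 1, 1, fun h => hD (by rw [h, map_zero]), monic_one, by simp, by simp, by simp,
      isCoprime_one_left, by simp, by simp⟩
  | succ n ih =>
    obtain ⟨a, ha⟩ : ∃ a, D.IsRoot a := by
      refine IsAlgClosed.exists_root D ?_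
      rw [degree_eq_natDegree hD, hn]
      exact_mod_cast Nat.succ_ne_zero n
    obtain ⟨E, hE⟩ := dvd_iff_isRoot.mpr ha
    have hE0 : E ≠ 0 := by rintro rfl; exact hD (by rw [hE, mul_zero])
    have hEn : E.natDegree = n := by
      have := congrArg natDegree hE
      rw [natDegree_mul (X_sub_C_ne_zero a) hE0, natDegree_X_sub_C, hn] at this
      omega
    obtain ⟨c, S, Q, hc, hS, hS1, hSr, hQ, hcop, hQr, hEe⟩ := ih E hE0 hEn
    by_cases ha1 : ‖a‖ ≤ 1
    · refine ⟨c, (X - Polynomial.C a) * S, Q, hc, (monic_X_sub_C a).mul hS, ?_, ?_, hQ, ?_,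
        hQr, ?_⟩
      · rw [gp_mul, gp_X_sub_C, max_eq_left ha1, one_mul]; exact hS1
      · intro b hb
        rw [mem_roots ((monic_X_sub_C a).mul hS).ne_zero, IsRoot.def, eval_mul,
          mul_eq_zero] at hb
        rcases hb with hb | hb
        · rw [eval_sub, eval_X, eval_C, sub_eq_zero] at hb; rw [hb]; exact ha1
        · exact hSr b (by rw [mem_roots hS.ne_zero]; exact hb)
      · refine IsCoprime.mul_left ?_ hcop
        rw [(irreducible_X_sub_C a).coprime_iff_not_dvd, dvd_iff_isRoot]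
        exact eval_ne_zero_of_gp hQ ha1
      · rw [hE, hEe]; ring
    · rw [not_le] at ha1
      have ha0 : a ≠ 0 := by rintro rfl; simp at ha1; linarith
      have hia : ‖a⁻¹‖ < 1 := by rw [norm_inv]; exact inv_lt_one_of_one_lt₀ ha1
      have hQ1 : gp Q = 1 := gp_eq_one_of_sub_lt hQ
      refine ⟨c * (-a), S, (1 - Polynomial.C a⁻¹ * X) * Q, mul_ne_zero hc (neg_ne_zero.mpr ha0),
        hS, hS1, hSr, ?_, ?_, ?_, ?_⟩
      · have : (1 - Polynomial.C a⁻¹ * X) * Q - 1 = (Q - 1) - Polynomial.C a⁻¹ * X * Q := by ring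
        rw [this]
        refine (gp_sub_le_max _ _).trans_lt (max_lt hQ ?_)
        rw [gp_mul, gp_mul, gp_C, gp_X, hQ1, mul_one, mul_one]; exact hia
      · refine IsCoprime.mul_right ?_ hcop
        have h2 : (1 - Polynomial.C a⁻¹ * X) = Polynomial.C (-a⁻¹) * (X - Polynomial.C a) := by
          have h3 : Polynomial.C a⁻¹ * Polynomial.C a = (1 : C[X]) := by
            rw [← map_mul, inv_mul_cancel₀ ha0, map_one]
          rw [map_neg, mul_sub, neg_mul, neg_mul, h3]; ring
        have hun : IsUnit (Polynomial.C (-a⁻¹)) := by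
          rw [isUnit_C, isUnit_iff_ne_zero]; simpa using ha0
        rw [h2, isCoprime_mul_unit_left_right hun]
        refine IsCoprime.symm ?_
        rw [(irreducible_X_sub_C a).coprime_iff_not_dvd, dvd_iff_isRoot]
        intro h
        exact absurd (hSr a (by rw [mem_roots hS.ne_zero]; exact h)) (not_le.mpr ha1)
      · intro b hb
        rw [IsRoot.def, eval_mul, mul_eq_zero] at hb
        rcases hb with hb | hb
        · rw [eval_sub, eval_one, eval_mul, eval_C, eval_X, sub_eq_zero] at hb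
          have : b = a := by field_simp at hb; exact hb.symm
          rw [this]; exact ha1
        · exact hQr b hb
      · rw [hE, hEe]
        have h3 : Polynomial.C a * Polynomial.C a⁻¹ = (1 : C[X]) := by
          rw [← map_mul, mul_inv_cancel₀ ha0, map_one]
        have h4 : (X - Polynomial.C a) = Polynomial.C (-a) * (1 - Polynomial.C a⁻¹ * X) := by
          rw [map_neg, mul_sub, neg_mul, neg_mul, ← mul_assoc, h3]; ring
        rw [h4, map_mul]; ring

/-- Every rational function is the sum of an element of `pre1` and one of `pre2z`. -/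
lemma exists_add (f : RatFunc C) : ∃ a ∈ pre1 C, ∃ b ∈ pre2z C, a + b = f := by
  obtain ⟨c, S, Q, hc, hS, hS1, hSr, hQ, hcop, hQr, hD⟩ := exists_factor f.denom f.denom_ne_zero
  obtain ⟨u, v, huv⟩ := hcop
  set N : C[X] := Polynomial.C c⁻¹ * f.num with hN
  have hq : gp Q = 1 := gp_eq_one_of_sub_lt hQ
  have h0 : Q ≠ 0 := by rintro rfl; simp at hq
  have h1 : (algebraMap C[X] (RatFunc C) Q) ≠ 0 := RatFunc.algebraMap_ne_zero h0
  have h2 : (algebraMap C[X] (RatFunc C) S) ≠ 0 := RatFunc.algebraMap_ne_zero hS.ne_zero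
  have hf : f = algebraMap _ _ N / (algebraMap _ _ Q * algebraMap _ _ S) := by
    have h3 : (algebraMap C[X] (RatFunc C) (Polynomial.C c)) ≠ 0 :=
      RatFunc.algebraMap_ne_zero (C_ne_zero.mpr hc)
    have h5 : (algebraMap C[X] (RatFunc C) (Polynomial.C c)) *
        (algebraMap C[X] (RatFunc C) (Polynomial.C c⁻¹)) = 1 := by
      rw [← map_mul, ← map_mul, mul_inv_cancel₀ hc, map_one, map_one]
    have h4 : f = algebraMap _ _ f.num / algebraMap _ _ f.denom := f.num_div_denom.symm
    rw [h4, hD, hN, map_mul, map_mul, map_mul, div_eq_div_iff (mul_ne_zero h3 (mul_ne_zero h2 h1))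
      (mul_ne_zero h1 h2)]
    linear_combination (-(algebraMap C[X] (RatFunc C)) f.num *
      (algebraMap C[X] (RatFunc C)) Q * (algebraMap C[X] (RatFunc C)) S) * h5
  have hgS : gp S ≤ 1 := hS1
  set R := (N * v) %ₘ S with hR
  set k := (N * v) /ₘ S with hk
  have hdiv : R + S * k = N * v := modByMonic_add_div (N * v) S
  have hNe : N = (N * u + k * Q) * S + R * Q := by
    linear_combination (-N) * huv + (-Q) * hdiv
  refine ⟨algebraMap _ _ (N * u + k * Q) / algebraMap _ _ Q, ⟨_, Q, hQ, rfl⟩,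
    algebraMap _ _ R / algebraMap _ _ S, ⟨R, S, hS, degree_modByMonic_lt _ hS, hS1, rfl⟩, ?_⟩
  rw [div_add_div _ _ h1 h2, hf]
  congr 1
  rw [← map_mul, ← map_mul, ← map_add]
  congr 1
  linear_combination (-1 : C[X]) * hNe

end AlgClosed

end P025H373
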