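import Mathlib

/-!
# Multiplicative splitting in complete ultrametric rings

Abstract factorisation lemma for field patching: `A` a complete ultrametric normed ring,
`B₁, B₂` closed subrings such that every `a : A` is `b₁ + b₂` with `‖bᵢ‖ ≤ ‖a‖`.  Then every
element `u` with `‖u - 1‖ < 1` is `b₁ * b₂` with `bᵢ` a unit of `Bᵢ`.
-/

open Filter Topology

namespace P025H373

section Abstract

variable {A : Type*} [NormedRing A] [NormOneClass A] [CompleteSpace A] [IsUltrametricDist A]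

omit [CompleteSpace A] in
/-- Elements at distance `< 1` from `1` have norm `1`. -/
lemma norm_eq_one_of_sub_lt {b : A} (h : ‖b - 1‖ < 1) : ‖b‖ = 1 := by
  have h1 : ‖(1 : A)‖ = 1 := norm_one
  have := IsUltrametricDist.norm_add_eq_max_of_norm_ne_norm (x := b - 1) (y := (1 : A))
    (by rw [h1]; exact h.ne)
  rw [sub_add_cancel, h1, max_eq_right h.le] at this
  exact this

lemma exists_inv_mem (B : Subring A) (hB : IsClosed (B : Set A)) {x : A} (hx : x ∈ B)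
    (h : ‖x‖ < 1) : ∃ y ∈ B, (1 + x) * y = 1 ∧ y * (1 + x) = 1 ∧ ‖y - 1‖ ≤ ‖x‖ := by
  have hx' : ‖-x‖ < 1 := by rwa [norm_neg]
  have hs : Summable fun n : ℕ => (-x) ^ n := summable_geometric_of_norm_lt_one hx'
  have hmem : ∑' n : ℕ, (-x) ^ n ∈ B := by
    have hsum := hs.hasSum.tendsto_sum_nat
    refine hB.mem_of_tendsto hsum (Eventually.of_forall fun n => ?_)
    exact B.sum_mem fun i _ => B.pow_mem (B.neg_mem hx) i
  refine ⟨∑' n : ℕ, (-x) ^ n, hmem, ?_, ?_, ?_⟩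
  · have := mul_neg_geom_series (-x) hx'
    rwa [sub_neg_eq_add] at this
  · have := geom_series_mul_neg (-x) hx'
    rwa [sub_neg_eq_add] at this
  · have h1 := mul_neg_geom_series (-x) hx'
    rw [sub_neg_eq_add] at h1
    have h2 : ∑' n : ℕ, (-x) ^ n - 1 = - (x * ∑' n : ℕ, (-x) ^ n) := by
      have h3 : ∑' n : ℕ, (-x) ^ n + x * ∑' n : ℕ, (-x) ^ n = 1 := by
        rw [← h1]; noncomm_ring
      rw [← h3]; noncomm_ring
    have h4 : ‖∑' n : ℕ, (-x) ^ n‖ ≤ 1 := by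
      refine le_of_tendsto (hs.hasSum.tendsto_sum_nat.norm) (Eventually.of_forall fun n => ?_)
      refine IsUltrametricDist.norm_sum_le_of_forall_le_of_nonneg zero_le_one fun i _ => ?_
      exact (norm_pow_le _ _).trans (pow_le_one₀ (norm_nonneg _) hx'.le)
    rw [h2, norm_neg]
    calc ‖x * ∑' n : ℕ, (-x) ^ n‖ ≤ ‖x‖ * ‖∑' n : ℕ, (-x) ^ n‖ := norm_mul_le _ _
      _ ≤ ‖x‖ * 1 := by gcongr
      _ = ‖x‖ := mul_one _

/-- One step of the factorisation. -/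
lemma split_step (B₁ B₂ : Subring A) (h₁ : IsClosed (B₁ : Set A)) (h₂ : IsClosed (B₂ : Set A))
    (hs : ∀ a : A, ∃ b₁ ∈ B₁, ∃ b₂ ∈ B₂, b₁ + b₂ = a ∧ ‖b₁‖ ≤ ‖a‖ ∧ ‖b₂‖ ≤ ‖a‖)
    {u : A} {r : ℝ} (hr0 : 0 ≤ r) (hr1 : r < 1) (n : ℕ) {P Q v : A}
    (hP : P ∈ B₁) (hQ : Q ∈ B₂) (hP1 : ‖P - 1‖ ≤ r) (hQ1 : ‖Q - 1‖ ≤ r)
    (hu : P * v * Q = u) (hv : ‖v - 1‖ ≤ r ^ (n + 1)) :
    ∃ P' Q' v' : A, P' ∈ B₁ ∧ Q' ∈ B₂ ∧ ‖P' - 1‖ ≤ r ∧ ‖Q' - 1‖ ≤ r ∧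
      P' * v' * Q' = u ∧ ‖v' - 1‖ ≤ r ^ (n + 2) ∧
      ‖P' - P‖ ≤ r ^ (n + 1) ∧ ‖Q' - Q‖ ≤ r ^ (n + 1) := by
  obtain ⟨x, hx, y, hy, hxy, hxn, hyn⟩ := hs (v - 1)
  have hrn : r ^ (n + 1) ≤ r := by
    calc r ^ (n + 1) ≤ r ^ 1 := pow_le_pow_of_le_one hr0 hr1.le (by omega)
      _ = r := pow_one r
  have hxr : ‖x‖ ≤ r ^ (n + 1) := hxn.trans hv
  have hyr : ‖y‖ ≤ r ^ (n + 1) := hyn.trans hv
  have hx1 : ‖x‖ < 1 := (hxr.trans hrn).trans_lt hr1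
  have hy1 : ‖y‖ < 1 := (hyr.trans hrn).trans_lt hr1
  obtain ⟨a, ha, ha1, ha2, ha3⟩ := exists_inv_mem B₁ h₁ hx hx1
  obtain ⟨b, hb, hb1, hb2, hb3⟩ := exists_inv_mem B₂ h₂ hy hy1
  have hPn : ‖P‖ = 1 := norm_eq_one_of_sub_lt (hP1.trans_lt hr1)
  have hQn : ‖Q‖ = 1 := norm_eq_one_of_sub_lt (hQ1.trans_lt hr1)
  have han : ‖a‖ = 1 := norm_eq_one_of_sub_lt (ha3.trans_lt hx1)
  have hbn : ‖b‖ = 1 := norm_eq_one_of_sub_lt (hb3.trans_lt hy1)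
  have hPx : ‖P * x‖ ≤ r ^ (n + 1) := by
    calc ‖P * x‖ ≤ ‖P‖ * ‖x‖ := norm_mul_le _ _
      _ = ‖x‖ := by rw [hPn, one_mul]
      _ ≤ _ := hxr
  have hyQ : ‖y * Q‖ ≤ r ^ (n + 1) := by
    calc ‖y * Q‖ ≤ ‖y‖ * ‖Q‖ := norm_mul_le _ _
      _ = ‖y‖ := by rw [hQn, mul_one]
      _ ≤ _ := hyr
  refine ⟨P * (1 + x), (1 + y) * Q, a * v * b, B₁.mul_mem hP (B₁.add_mem B₁.one_mem hx),
    B₂.mul_mem (B₂.add_mem B₂.one_mem hy) hQ, ?_, ?_, ?_, ?_, ?_, ?_⟩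
  · have : P * (1 + x) - 1 = (P - 1) + P * x := by noncomm_ring
    rw [this]
    exact (IsUltrametricDist.norm_add_le_max _ _).trans (max_le hP1 (hPx.trans hrn))
  · have : (1 + y) * Q - 1 = (Q - 1) + y * Q := by noncomm_ring
    rw [this]
    exact (IsUltrametricDist.norm_add_le_max _ _).trans (max_le hQ1 (hyQ.trans hrn))
  · calc P * (1 + x) * (a * v * b) * ((1 + y) * Q)
        = P * ((1 + x) * a) * v * (b * (1 + y)) * Q := by noncomm_ring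
      _ = P * v * Q := by rw [ha1, hb2, mul_one, mul_one]
      _ = u := hu
  · have e1 : v = 1 + (x + y) := by rw [hxy]; abel
    have : a * v * b - 1 = a * (-(x * y)) * b := by
      have e2 : v = (1 + x) * (1 + y) - x * y := by rw [e1]; noncomm_ring
      calc a * v * b - 1 = (a * (1 + x)) * ((1 + y) * b) - a * (x * y) * b - 1 := by
            rw [e2]; noncomm_ring
        _ = a * (-(x * y)) * b := by rw [ha2, hb1]; noncomm_ring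
    rw [this]
    calc ‖a * (-(x * y)) * b‖ ≤ ‖a * (-(x * y))‖ * ‖b‖ := norm_mul_le _ _
      _ ≤ ‖a‖ * ‖-(x * y)‖ * ‖b‖ := by gcongr; exact norm_mul_le _ _
      _ = ‖x * y‖ := by rw [han, hbn, norm_neg, one_mul, mul_one]
      _ ≤ ‖x‖ * ‖y‖ := norm_mul_le _ _
      _ ≤ r ^ (n + 1) * r := by gcongr; exact hyr.trans hrn
      _ = r ^ (n + 2) := by rw [← pow_succ]
  · have : P * (1 + x) - P = P * x := by noncomm_ring
    rw [this]; exact hPx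
  · have : (1 + y) * Q - Q = y * Q := by noncomm_ring
    rw [this]; exact hyQ

/-- **Multiplicative splitting.**  If `A = B₁ + B₂` with bounds, every `u` near `1` is a product
of elements of `B₁` and `B₂` near `1`. -/
theorem exists_mul_split (B₁ B₂ : Subring A) (h₁ : IsClosed (B₁ : Set A))
    (h₂ : IsClosed (B₂ : Set A))
    (hs : ∀ a : A, ∃ b₁ ∈ B₁, ∃ b₂ ∈ B₂, b₁ + b₂ = a ∧ ‖b₁‖ ≤ ‖a‖ ∧ ‖b₂‖ ≤ ‖a‖)
    {u : A} (hu : ‖u - 1‖ < 1) :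
    ∃ P ∈ B₁, ∃ Q ∈ B₂, P * Q = u ∧ ‖P - 1‖ ≤ ‖u - 1‖ ∧ ‖Q - 1‖ ≤ ‖u - 1‖ := by
  set r := ‖u - 1‖ with hr
  have hr0 : 0 ≤ r := norm_nonneg _
  let X : ℕ → Type _ := fun n => {s : A × A × A // s.1 ∈ B₁ ∧ s.2.1 ∈ B₂ ∧ ‖s.1 - 1‖ ≤ r ∧
    ‖s.2.1 - 1‖ ≤ r ∧ s.1 * s.2.2 * s.2.1 = u ∧ ‖s.2.2 - 1‖ ≤ r ^ (n + 1)}
  have hstep : ∀ n (s : X n), ∃ s' : X (n + 1), ‖s'.1.1 - s.1.1‖ ≤ r ^ (n + 1) ∧
      ‖s'.1.2.1 - s.1.2.1‖ ≤ r ^ (n + 1) := by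
    rintro n ⟨⟨P, Q, v⟩, hP, hQ, hP1, hQ1, huv, hv⟩
    obtain ⟨P', Q', v', a1, a2, a3, a4, a5, a6, a7, a8⟩ :=
      split_step B₁ B₂ h₁ h₂ hs hr0 hu n hP hQ hP1 hQ1 huv hv
    exact ⟨⟨⟨P', Q', v'⟩, a1, a2, a3, a4, a5, a6⟩, a7, a8⟩
  choose nxt hnxt1 hnxt2 using hstep
  let s0 : X 0 := ⟨(1, 1, u), B₁.one_mem, B₂.one_mem, by simpa using hr0, by simpa using hr0,
    by simp, by simp [hr]⟩
  let s : ∀ n, X n := fun n => Nat.rec s0 (fun n x => nxt n x) n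
  have hsucc : ∀ n, s (n + 1) = nxt n (s n) := fun n => rfl
  have hgeo : Summable fun n : ℕ => r ^ (n + 1) := by
    simpa [pow_succ] using (summable_geometric_of_lt_one hr0 hu).mul_right r
  have hcP : CauchySeq fun n => (s n).1.1 := by
    refine cauchySeq_of_dist_le_of_summable (fun n => r ^ (n + 1)) (fun n => ?_) hgeo
    rw [dist_comm, dist_eq_norm, hsucc]
    exact hnxt1 n (s n)
  have hcQ : CauchySeq fun n => (s n).1.2.1 := by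
    refine cauchySeq_of_dist_le_of_summable (fun n => r ^ (n + 1)) (fun n => ?_) hgeo
    rw [dist_comm, dist_eq_norm, hsucc]
    exact hnxt2 n (s n)
  obtain ⟨P, hP⟩ := cauchySeq_tendsto_of_complete hcP
  obtain ⟨Q, hQ⟩ := cauchySeq_tendsto_of_complete hcQ
  have hv : Tendsto (fun n => (s n).1.2.2) atTop (𝓝 1) := by
    rw [tendsto_iff_norm_sub_tendsto_zero]
    refine squeeze_zero (fun n => norm_nonneg _) (fun n => (s n).2.2.2.2.2.2) ?_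
    exact (tendsto_pow_atTop_nhds_zero_of_lt_one hr0 hu).comp (tendsto_add_atTop_nat 1)
  refine ⟨P, h₁.mem_of_tendsto hP (Eventually.of_forall fun n => (s n).2.1), Q,
    h₂.mem_of_tendsto hQ (Eventually.of_forall fun n => (s n).2.2.1), ?_, ?_, ?_⟩
  · have h3 : Tendsto (fun n => (s n).1.1 * (s n).1.2.2 * (s n).1.2.1) atTop
        (𝓝 (P * 1 * Q)) := (hP.mul hv).mul hQ
    have h4 : (fun n => (s n).1.1 * (s n).1.2.2 * (s n).1.2.1) = fun _ => u :=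
      funext fun n => (s n).2.2.2.2.2.1
    rw [h4, mul_one] at h3
    exact tendsto_nhds_unique h3 tendsto_const_nhds
  · exact le_of_tendsto ((hP.sub_const 1).norm) (Eventually.of_forall fun n => (s n).2.2.2.1)
  · exact le_of_tendsto ((hQ.sub_const 1).norm) (Eventually.of_forall fun n => (s n).2.2.2.2.1)

end Abstract

end P025H373
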