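import Vale.Agent.P025.R2.H373.Gauss1
import Vale.Agent.P025.R2.H373.Split

/-!
# Additive splitting of the Gauss field, value at infinity
-/

open Polynomial Filter Topology

universe u

namespace P025H373

section Basic

variable {C : Type u} [NormedField C] [IsUltrametricDist C]

theorem isClosed_A1 : IsClosed (A1 C : Set (F0 C)) := Subalgebra.isClosed_topologicalClosure _
theorem isClosed_A2 : IsClosed (A2 C : Set (F0 C)) := Subalgebra.isClosed_topologicalClosure _

lemma algebraMap_poly (P : C[X]) :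
    algebraMap (RatFunc C) (F0 C) (algebraMap C[X] (RatFunc C) P) = aeval (tt C) P :=
  algebraMap_poly_eq P

lemma norm_aeval (P : C[X]) : ‖aeval (tt C) P‖ = gp P := by
  rw [← algebraMap_poly, norm_algebraMap, gauss_poly]

@[simp] theorem norm_tt : ‖tt C‖ = 1 := by
  have := norm_aeval (X : C[X])
  rwa [aeval_X, gp_X] at this

lemma tt_ne_zero : tt C ≠ 0 := by
  rw [← norm_ne_zero_iff, norm_tt]; exact one_ne_zero

lemma aeval_mem_A1 (P : C[X]) : aeval (tt C) P ∈ A1 C :=
  Subalgebra.le_topologicalClosure _ (aeval_mem_adjoin_singleton C (tt C))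

theorem tt_mem_A1 : tt C ∈ A1 C := by
  have := aeval_mem_A1 (X : C[X])
  rwa [aeval_X] at this

lemma aeval_inj {P : C[X]} : aeval (tt C) P = 0 ↔ P = 0 := by
  rw [← norm_eq_zero, norm_aeval, gp_eq_zero]

lemma algebraMap_mem_A2 {f : RatFunc C} (hf : f ∈ pre2 C) :
    algebraMap (RatFunc C) (F0 C) f ∈ A2 C :=
  Subalgebra.le_topologicalClosure _ ⟨f, hf, rfl⟩

lemma div_mem_A2 {P S : C[X]} (hS : S.Monic) (hd : P.degree ≤ S.degree)
    (h1 : ∀ i, ‖S.coeff i‖ ≤ 1) : aeval (tt C) P / aeval (tt C) S ∈ A2 C := by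
  have := algebraMap_mem_A2 (C := C) ⟨P, S, hS, hd, h1, rfl⟩
  rwa [map_div₀, algebraMap_poly, algebraMap_poly] at this

theorem inv_tt_mem_A2 : (tt C)⁻¹ ∈ A2 C := by
  have := div_mem_A2 (C := C) (P := 1) (S := X) monic_X (by
    rw [degree_one, degree_X]; exact zero_le_one) (fun i => by
      rw [coeff_X]; split_ifs <;> simp)
  simpa using this

lemma A1_induction {p : F0 C → Prop} (hc : IsClosed {x | p x})
    (h : ∀ P : C[X], p (aeval (tt C) P)) {x : F0 C} (hx : x ∈ A1 C) : p x := by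
  have h1 : (A1 C : Set (F0 C)) ⊆ {x | p x} := by
    have : (A1 C : Set (F0 C)) = closure (Algebra.adjoin C {tt C} : Set (F0 C)) := rfl
    rw [this]
    refine closure_minimal ?_ hc
    intro y hy
    rw [Algebra.adjoin_singleton_eq_range_aeval] at hy
    obtain ⟨P, rfl⟩ := hy
    exact h P
  exact h1 hx

lemma A2_induction {p : F0 C → Prop} (hc : IsClosed {x | p x})
    (h : ∀ P S : C[X], S.Monic → P.degree ≤ S.degree → (∀ i, ‖S.coeff i‖ ≤ 1) →
      p (aeval (tt C) P / aeval (tt C) S)) {x : F0 C} (hx : x ∈ A2 C) : p x := by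
  have h1 : (A2 C : Set (F0 C)) ⊆ {x | p x} := by
    have : (A2 C : Set (F0 C)) = closure ((pre2 C).map (ιA C) : Set (F0 C)) := rfl
    rw [this]
    refine closure_minimal ?_ hc
    rintro y ⟨f, ⟨P, S, hS, hd, h1, rfl⟩, rfl⟩
    have h2 := h P S hS hd h1
    rw [← algebraMap_poly, ← algebraMap_poly, ← map_div₀] at h2
    exact h2
  exact h1 hx

lemma pre1_mem_A1 [CompleteSpace C] {f : RatFunc C} (hf : f ∈ pre1 C) :
    algebraMap (RatFunc C) (F0 C) f ∈ A1 C := by
  obtain ⟨P, Q, hQ, rfl⟩ := hf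
  rw [map_div₀, algebraMap_poly, algebraMap_poly, div_eq_mul_inv]
  refine mul_mem (aeval_mem_A1 P) ?_
  obtain ⟨y, hy, hy1, -, -⟩ := exists_inv_mem (A := F0 C) (A1 C).toSubring isClosed_A1
    (x := aeval (tt C) (Q - 1)) (aeval_mem_A1 _) (by rw [norm_aeval]; exact hQ)
  rw [map_sub, map_one, add_sub_cancel] at hy1
  rw [← eq_inv_of_mul_eq_one_right hy1]
  exact hy

lemma tt_mul_pre2z_mem_A2 {f : RatFunc C} (hf : f ∈ pre2z C) :
    tt C * algebraMap (RatFunc C) (F0 C) f ∈ A2 C := by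
  obtain ⟨P, S, hS, hd, hn, rfl⟩ := hf
  rw [map_div₀, algebraMap_poly, algebraMap_poly, ← mul_div_assoc]
  have h : tt C * aeval (tt C) P = aeval (tt C) (X * P) := by rw [map_mul, aeval_X]
  rw [h]
  refine div_mem_A2 hS ?_ (gp_le_iff.mp hn)
  by_cases hP : P = 0
  · simp [hP]
  rw [degree_mul, degree_X]
  rw [degree_eq_natDegree hP, degree_eq_natDegree hS.ne_zero] at *
  have : P.natDegree < S.natDegree := by exact_mod_cast hd
  exact_mod_cast (by omega : 1 + P.natDegree ≤ S.natDegree)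

lemma mem_A2_of_tt_mul {x : F0 C} (h : tt C * x ∈ A2 C) : x ∈ A2 C := by
  have := mul_mem inv_tt_mem_A2 h
  rwa [← mul_assoc, inv_mul_cancel₀ tt_ne_zero, one_mul] at this

lemma max_le_norm_add {a b : F0 C} (ha : a ∈ A1 C) (hb : tt C * b ∈ A2 C) :
    max ‖a‖ ‖b‖ ≤ ‖a + b‖ := by
  have key : ∀ y ∈ A2 C, ∀ a ∈ A1 C, max ‖a‖ ‖(tt C)⁻¹ * y‖ ≤ ‖a + (tt C)⁻¹ * y‖ := by
    intro y hy
    refine A2_induction (p := fun y => ∀ a ∈ A1 C, max ‖a‖ ‖(tt C)⁻¹ * y‖ ≤ ‖a + (tt C)⁻¹ * y‖)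
      ?_ ?_ hy
    · simp only [Set.setOf_forall]
      refine isClosed_iInter fun a => isClosed_iInter fun _ => ?_
      exact isClosed_le (by fun_prop) (by fun_prop)
    · intro P S hS hd h1 a ha
      refine A1_induction (p := fun a => max ‖a‖ ‖(tt C)⁻¹ * (aeval (tt C) P / aeval (tt C) S)‖ ≤
        ‖a + (tt C)⁻¹ * (aeval (tt C) P / aeval (tt C) S)‖) ?_ ?_ ha
      · exact isClosed_le (by fun_prop) (by fun_prop)
      · intro A
        have h2 : (algebraMap C[X] (RatFunc C) A) ∈ pre1 C := ⟨A, 1, by simp, by simp⟩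
        have h3 : (algebraMap C[X] (RatFunc C) P) / (algebraMap C[X] (RatFunc C) (X * S)) ∈
            pre2z C := by
          refine ⟨P, X * S, monic_X.mul hS, ?_, ?_, rfl⟩
          · refine hd.trans_lt ?_
            rw [degree_mul, degree_X, degree_eq_natDegree hS.ne_zero]
            exact_mod_cast (by omega : S.natDegree < 1 + S.natDegree)
          · rw [gp_mul, gp_X, one_mul]; exact gp_le_iff.mpr h1
        have h4 := max_le_gauss_add h2 h3
        have e : algebraMap (RatFunc C) (F0 C)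
            ((algebraMap C[X] (RatFunc C) P) / (algebraMap C[X] (RatFunc C) (X * S))) =
            (tt C)⁻¹ * (aeval (tt C) P / aeval (tt C) S) := by
          rw [map_div₀, algebraMap_poly, algebraMap_poly, map_mul, aeval_X]
          field_simp
        rwa [← norm_algebraMap, ← norm_algebraMap, ← norm_algebraMap, map_add, e,
          algebraMap_poly] at h4
  have := key _ hb a ha
  rwa [← mul_assoc, inv_mul_cancel₀ tt_ne_zero, one_mul] at this

/-- uniqueness in (1.1) -/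
theorem split_unique {x : F0 C} (h1 : x ∈ A1 C) (h2 : tt C * x ∈ A2 C) : x = 0 := by
  have h3 : tt C * (-x) ∈ A2 C := by rw [mul_neg]; exact neg_mem h2
  have := max_le_norm_add h1 h3
  rw [add_neg_cancel, norm_zero] at this
  exact norm_le_zero_iff.mp ((le_max_left _ _).trans this)

end Basic

section Split

variable {C : Type u} [NormedField C] [IsUltrametricDist C] [CompleteSpace C] [IsAlgClosed C]

/-- (1.1) `F0 = A1 ⊕ t⁻¹ A2`, norm nonincreasing. -/
theorem exists_split (x : F0 C) : ∃ a ∈ A1 C, ∃ b ∈ A2 C, tt C * b ∈ A2 C ∧ a + b = x ∧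
    ‖a‖ ≤ ‖x‖ ∧ ‖b‖ ≤ ‖x‖ := by
  obtain ⟨f, hf⟩ : ∃ f : ℕ → F0 C, (∀ n, f n ∈ Set.range (algebraMap (RatFunc C) (F0 C))) ∧
      Tendsto f atTop (𝓝 x) := by
    have := denseRange_algebraMap (C := C) x
    exact mem_closure_iff_seq_limit.mp this
  have hg : ∀ n, ∃ a b : F0 C, a ∈ A1 C ∧ tt C * b ∈ A2 C ∧ a + b = f n := by
    intro n
    obtain ⟨g, hg⟩ := hf.1 n
    obtain ⟨a, ha, b, hb, hab⟩ := exists_add g
    exact ⟨_, _, pre1_mem_A1 ha, tt_mul_pre2z_mem_A2 hb, by rw [← map_add, hab, hg]⟩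
  choose a b ha hb hab using hg
  have hcf : CauchySeq f := hf.2.cauchySeq
  have hd : ∀ m n, ‖a m - a n‖ ≤ ‖f m - f n‖ ∧ ‖b m - b n‖ ≤ ‖f m - f n‖ := by
    intro m n
    have h1 : a m - a n ∈ A1 C := sub_mem (ha m) (ha n)
    have h2 : tt C * (b m - b n) ∈ A2 C := by rw [mul_sub]; exact sub_mem (hb m) (hb n)
    have h3 := max_le_norm_add h1 h2
    have h4 : a m - a n + (b m - b n) = f m - f n := by rw [← hab, ← hab]; ring
    rw [h4] at h3
    exact ⟨(le_max_left _ _).trans h3, (le_max_right _ _).trans h3⟩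
  have hca : CauchySeq a := by
    rw [Metric.cauchySeq_iff] at hcf ⊢
    intro ε hε
    obtain ⟨N, hN⟩ := hcf ε hε
    refine ⟨N, fun m hm n hn => ?_⟩
    rw [dist_eq_norm]
    exact (hd m n).1.trans_lt (by rw [← dist_eq_norm]; exact hN m hm n hn)
  have hcb : CauchySeq b := by
    rw [Metric.cauchySeq_iff] at hcf ⊢
    intro ε hε
    obtain ⟨N, hN⟩ := hcf ε hε
    refine ⟨N, fun m hm n hn => ?_⟩
    rw [dist_eq_norm]
    exact (hd m n).2.trans_lt (by rw [← dist_eq_norm]; exact hN m hm n hn)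
  obtain ⟨a', ha'⟩ := cauchySeq_tendsto_of_complete hca
  obtain ⟨b', hb'⟩ := cauchySeq_tendsto_of_complete hcb
  have m1 : a' ∈ A1 C := isClosed_A1.mem_of_tendsto ha' (Eventually.of_forall ha)
  have m2 : tt C * b' ∈ A2 C :=
    isClosed_A2.mem_of_tendsto (hb'.const_mul (tt C)) (Eventually.of_forall hb)
  have e : a' + b' = x := by
    have h1 := ha'.add hb'
    have h2 : (fun n => a n + b n) = f := funext hab
    rw [h2] at h1
    exact tendsto_nhds_unique h1 hf.2
  have h5 := max_le_norm_add m1 m2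
  rw [e] at h5
  exact ⟨a', m1, b', mem_A2_of_tt_mul m2, m2, e, (le_max_left _ _).trans h5,
    (le_max_right _ _).trans h5⟩

end Split

end P025H373
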