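import Vale.Agent.P025.R2.H373.Gauss2

/-!
# Value at infinity on `A2`; `A1 ∩ t^d A2` = polynomials of degree `≤ d`
-/

open Polynomial Filter Topology

universe u

namespace P025H373

section Uniq

variable {C : Type u} [NormedField C] [IsUltrametricDist C]

lemma norm_const_le {y : F0 C} {c : C}
    (h : tt C * (y - algebraMap C (F0 C) c) ∈ A2 C) : ‖c‖ ≤ ‖y‖ := by
  have h1 := max_le_norm_add (algebraMap_mem (A1 C) c) h
  rw [add_sub_cancel] at h1
  simpa using (le_max_left _ _).trans h1

lemma const_unique {y : F0 C} {c d : C}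
    (hc : tt C * (y - algebraMap C (F0 C) c) ∈ A2 C)
    (hd : tt C * (y - algebraMap C (F0 C) d) ∈ A2 C) : c = d := by
  have h : tt C * (0 - algebraMap C (F0 C) (c - d)) ∈ A2 C := by
    have := sub_mem hc hd
    rw [← mul_sub] at this
    rwa [map_sub, zero_sub, neg_sub, show algebraMap C (F0 C) d - algebraMap C (F0 C) c =
      y - algebraMap C (F0 C) c - (y - algebraMap C (F0 C) d) by ring]
  have := norm_const_le h
  rw [norm_zero] at this
  exact sub_eq_zero.mp (norm_le_zero_iff.mp this)

lemma div_const_mem {P S : C[X]} (hS : S.Monic) (hd : P.degree ≤ S.degree)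
    (h1 : ∀ i, ‖S.coeff i‖ ≤ 1) :
    tt C * (aeval (tt C) P / aeval (tt C) S - algebraMap C (F0 C) (P.coeff S.natDegree)) ∈
      A2 C := by
  have hS0 : aeval (tt C) S ≠ 0 := fun h => hS.ne_zero (aeval_inj.mp h)
  set c := P.coeff S.natDegree with hc
  have e : tt C * (aeval (tt C) P / aeval (tt C) S - algebraMap C (F0 C) c) =
      aeval (tt C) (X * (P - Polynomial.C c * S)) / aeval (tt C) S := by
    rw [map_mul, aeval_X, map_sub, map_mul, aeval_C]
    field_simp
  rw [e]
  refine div_mem_A2 hS ?_ h1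
  rw [degree_le_iff_coeff_zero]
  intro m hm
  rw [degree_eq_natDegree hS.ne_zero, Nat.cast_lt] at hm
  obtain ⟨m, rfl⟩ : ∃ k, m = k + 1 := ⟨m - 1, by omega⟩
  rw [coeff_X_mul, coeff_sub, coeff_C_mul]
  rcases (Nat.lt_succ_iff.mp hm).eq_or_lt with h | h
  · rw [← h, hS.coeff_natDegree, mul_one, hc, sub_self]
  · rw [coeff_eq_zero_of_natDegree_lt h, mul_zero, sub_zero]
    refine coeff_eq_zero_of_degree_lt (hd.trans_lt ?_)
    rw [degree_eq_natDegree hS.ne_zero]
    exact_mod_cast h

end Uniq

section EvInf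

variable {C : Type u} [NormedField C] [IsUltrametricDist C] [CompleteSpace C]

lemma exists_const {y : F0 C} (hy : y ∈ A2 C) :
    ∃ c : C, tt C * (y - algebraMap C (F0 C) c) ∈ A2 C := by
  have hy' : y ∈ closure ((pre2 C).map (ιA C) : Set (F0 C)) := hy
  obtain ⟨f, hf, hlim⟩ := mem_closure_iff_seq_limit.mp hy'
  have hg : ∀ n, ∃ c : C, tt C * (f n - algebraMap C (F0 C) c) ∈ A2 C := by
    intro n
    obtain ⟨g, ⟨P, S, hS, hd, h1, rfl⟩, hg⟩ := hf n
    refine ⟨P.coeff S.natDegree, ?_⟩
    have := div_const_mem hS hd h1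
    rwa [← algebraMap_poly, ← algebraMap_poly, ← map_div₀, show algebraMap (RatFunc C) (F0 C)
      (algebraMap C[X] (RatFunc C) P / algebraMap C[X] (RatFunc C) S) = f n from hg] at this
  choose c hc using hg
  have hd : ∀ m n, ‖c m - c n‖ ≤ ‖f m - f n‖ := by
    intro m n
    refine norm_const_le ?_
    have := sub_mem (hc m) (hc n)
    rw [← mul_sub] at this
    rwa [map_sub, show f m - f n - (algebraMap C (F0 C) (c m) - algebraMap C (F0 C) (c n)) =
      f m - algebraMap C (F0 C) (c m) - (f n - algebraMap C (F0 C) (c n)) by ring]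
  have hcf : CauchySeq f := hlim.cauchySeq
  have hcc : CauchySeq c := by
    rw [Metric.cauchySeq_iff] at hcf ⊢
    intro ε hε
    obtain ⟨N, hN⟩ := hcf ε hε
    refine ⟨N, fun m hm n hn => ?_⟩
    rw [dist_eq_norm]
    exact (hd m n).trans_lt (by rw [← dist_eq_norm]; exact hN m hm n hn)
  obtain ⟨c', hc'⟩ := cauchySeq_tendsto_of_complete hcc
  refine ⟨c', isClosed_A2.mem_of_tendsto (f := fun n => tt C * (f n - algebraMap C (F0 C) (c n)))
    (b := atTop) ?_ (Eventually.of_forall hc)⟩
  refine (hlim.sub ?_).const_mul _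
  exact ((continuous_algebraMap C (F0 C)).tendsto c').comp hc'

variable (C) in
/-- Value at infinity on `A2`. -/
noncomputable def evInf : A2 C →ₐ[C] C where
  toFun x := (exists_const x.2).choose
  map_one' := by
    refine const_unique (exists_const (1 : A2 C).2).choose_spec ?_
    rw [map_one, OneMemClass.coe_one, sub_self, mul_zero]
    exact zero_mem _
  map_zero' := by
    refine const_unique (exists_const (0 : A2 C).2).choose_spec ?_
    rw [map_zero, ZeroMemClass.coe_zero, sub_self, mul_zero]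
    exact zero_mem _
  map_mul' x y := by
    refine const_unique (exists_const (x * y).2).choose_spec ?_
    have h1 := mul_mem (exists_const x.2).choose_spec y.2
    have h2 := mul_mem (algebraMap_mem (A2 C) (exists_const x.2).choose)
      (exists_const y.2).choose_spec
    have := add_mem h1 h2
    rw [map_mul, MulMemClass.coe_mul]
    convert this using 1
    ring
  map_add' x y := by
    refine const_unique (exists_const (x + y).2).choose_spec ?_
    have := add_mem (exists_const x.2).choose_spec (exists_const y.2).choose_spec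
    rw [map_add, AddMemClass.coe_add]
    convert this using 1
    ring
  commutes' c := by
    refine const_unique (exists_const (algebraMap C (A2 C) c).2).choose_spec ?_
    change tt C * (algebraMap C (F0 C) c - algebraMap C (F0 C) (algebraMap C C c)) ∈ A2 C
    rw [Algebra.algebraMap_self_apply, sub_self, mul_zero]
    exact zero_mem _

lemma evInf_spec (x : A2 C) : tt C * ((x : F0 C) - algebraMap C (F0 C) (evInf C x)) ∈ A2 C :=
  (exists_const x.2).choose_spec

lemma evInf_eq {x : A2 C} {c : C} (h : tt C * ((x : F0 C) - algebraMap C (F0 C) c) ∈ A2 C) :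
    evInf C x = c := const_unique (evInf_spec x) h

theorem norm_evInf_le (x : A2 C) : ‖evInf C x‖ ≤ ‖(x : F0 C)‖ := norm_const_le (evInf_spec x)

/-- value at infinity of `P / S`, `S` monic of norm one, `deg P ≤ deg S`. -/
theorem evInf_div (P S : C[X]) (hS : S.Monic) (hd : P.degree ≤ S.degree)
    (h1 : ∀ i, ‖S.coeff i‖ ≤ 1) (x : A2 C) (hx : (x : F0 C) = aeval (tt C) P / aeval (tt C) S) :
    evInf C x = P.coeff S.natDegree :=
  evInf_eq (by rw [hx]; exact div_const_mem hS hd h1)

/-- the kernel of the value at infinity is `t⁻¹ A2`. -/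
theorem evInf_eq_zero_iff (x : A2 C) : evInf C x = 0 ↔ tt C * (x : F0 C) ∈ A2 C := by
  constructor
  · intro h
    have := evInf_spec x
    rwa [h, map_zero, sub_zero] at this
  · intro h
    exact evInf_eq (by rwa [map_zero, sub_zero])

/-- (1.2) `A1 ∩ t^d A2` = polynomials of degree `≤ d`. -/
theorem exists_poly_of_mem {x : F0 C} (d : ℕ) (h1 : x ∈ A1 C) (h2 : x * (tt C)⁻¹ ^ d ∈ A2 C) :
    ∃ P : C[X], P.natDegree ≤ d ∧ x = aeval (tt C) P := by
  have ht : tt C ≠ 0 := tt_ne_zero
  induction d generalizing x with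
  | zero =>
    rw [pow_zero, mul_one] at h2
    obtain ⟨c, hc⟩ := exists_const h2
    refine ⟨Polynomial.C c, by simp, ?_⟩
    have h3 := split_unique (sub_mem h1 (algebraMap_mem (A1 C) c)) hc
    rw [aeval_C, ← sub_eq_zero, h3]
  | succ d ih =>
    obtain ⟨c, hc⟩ := exists_const h2
    have h3 : x - algebraMap C (F0 C) c * tt C ^ (d + 1) ∈ A1 C :=
      sub_mem h1 (mul_mem (algebraMap_mem (A1 C) c) (pow_mem tt_mem_A1 _))
    obtain ⟨P, hP, hPx⟩ := ih h3 (by
      convert hc using 1
      have e : tt C ^ (d + 1) * (tt C)⁻¹ ^ d = tt C := by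
        rw [pow_succ, mul_right_comm, ← mul_pow, mul_inv_cancel₀ ht, one_pow, one_mul]
      have e2 : tt C * (tt C)⁻¹ ^ (d + 1) = (tt C)⁻¹ ^ d := by
        rw [pow_succ, mul_left_comm, mul_inv_cancel₀ ht, mul_one]
      linear_combination (-algebraMap C (F0 C) c) * e - x * e2)
    refine ⟨P + Polynomial.C c * X ^ (d + 1), ?_, ?_⟩
    · refine natDegree_add_le_of_degree_le (hP.trans (Nat.le_succ _)) ?_
      exact natDegree_C_mul_X_pow_le _ _
    · rw [map_add, map_mul, aeval_C, map_pow, aeval_X, ← hPx]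
      ring

theorem exists_const_of_mem {x : F0 C} (h1 : x ∈ A1 C) (h2 : x ∈ A2 C) :
    ∃ c : C, x = algebraMap C (F0 C) c := by
  obtain ⟨c, hc⟩ := exists_const h2
  refine ⟨c, ?_⟩
  have h3 := split_unique (sub_mem h1 (algebraMap_mem (A1 C) c)) hc
  rw [← sub_eq_zero, h3]

end EvInf

end P025H373
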