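import Vale.Agent.P025.R2.H373.Gauss3

/-!
# Multiplicative splitting, Weierstrass preparation on both sides of the unit circle
-/

open Polynomial Filter Topology

universe u

namespace P025H373

section Weier

variable {C : Type u} [NormedField C] [IsUltrametricDist C] [CompleteSpace C]

lemma exists_inv_A1 {h : F0 C} (hh : h ∈ A1 C) (h1 : ‖h‖ < 1) :
    (1 + h)⁻¹ ∈ A1 C ∧ ‖(1 + h)⁻¹ - 1‖ ≤ ‖h‖ := by
  obtain ⟨y, hy, hy1, -, hy2⟩ := exists_inv_mem (A := F0 C) (A1 C).toSubring isClosed_A1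
    (x := h) hh h1
  rw [← eq_inv_of_mul_eq_one_right hy1]
  exact ⟨hy, hy2⟩

lemma exists_inv_A2 {h : F0 C} (hh : h ∈ A2 C) (h1 : ‖h‖ < 1) :
    (1 + h)⁻¹ ∈ A2 C ∧ ‖(1 + h)⁻¹ - 1‖ ≤ ‖h‖ := by
  obtain ⟨y, hy, hy1, -, hy2⟩ := exists_inv_mem (A := F0 C) (A2 C).toSubring isClosed_A2
    (x := h) hh h1
  rw [← eq_inv_of_mul_eq_one_right hy1]
  exact ⟨hy, hy2⟩

omit [IsUltrametricDist C] [CompleteSpace C] in
lemma one_add_ne_zero' [IsUltrametricDist C] {h : F0 C} (h1 : ‖h‖ < 1) : 1 + h ≠ 0 := by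
  intro h0
  have : h = -1 := by linear_combination h0
  rw [this, norm_neg, norm_one] at h1
  exact lt_irrefl _ h1

lemma exists_poly_near {x : F0 C} (hx : x ∈ A1 C) {ε : ℝ} (hε : 0 < ε) :
    ∃ P : C[X], ‖x - aeval (tt C) P‖ < ε := by
  have hx' : x ∈ closure (Algebra.adjoin C {tt C} : Set (F0 C)) := hx
  obtain ⟨y, hy, hxy⟩ := Metric.mem_closure_iff.mp hx' ε hε
  rw [SetLike.mem_coe, Algebra.adjoin_singleton_eq_range_aeval] at hy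
  obtain ⟨P, rfl⟩ := hy
  exact ⟨P, by rwa [← dist_eq_norm]⟩

lemma exists_pre2_near {x : F0 C} (hx : x ∈ A2 C) {ε : ℝ} (hε : 0 < ε) :
    ∃ g ∈ pre2 C, ‖x - algebraMap (RatFunc C) (F0 C) g‖ < ε := by
  have hx' : x ∈ closure ((pre2 C).map (ιA C) : Set (F0 C)) := hx
  obtain ⟨y, ⟨g, hg, rfl⟩, hxy⟩ := Metric.mem_closure_iff.mp hx' ε hε
  exact ⟨g, hg, by rwa [← dist_eq_norm]⟩

lemma exists_rat_near (x : F0 C) {ε : ℝ} (hε : 0 < ε) :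
    ∃ g : RatFunc C, ‖x - algebraMap (RatFunc C) (F0 C) g‖ < ε := by
  obtain ⟨g, hg⟩ := Metric.denseRange_iff.mp (denseRange_algebraMap (C := C)) x ε hε
  exact ⟨g, by rwa [← dist_eq_norm]⟩

variable [IsAlgClosed C]

lemma mul_split {x : F0 C} (hx : ‖x - 1‖ < 1) : ∃ u ∈ A1 C, ∃ v ∈ A2 C,
    ‖u‖ ≤ ‖x - 1‖ ∧ ‖v‖ ≤ ‖x - 1‖ ∧ x = (1 + u) * (1 + v) := by
  obtain ⟨P, hP, Q, hQ, hPQ, hP1, hQ1⟩ := exists_mul_split (A := F0 C) (A1 C).toSubring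
    (A2 C).toSubring isClosed_A1 isClosed_A2 (fun a => by
      obtain ⟨b₁, h1, b₂, h2, -, h3⟩ := exists_split a
      exact ⟨b₁, h1, b₂, h2, h3⟩) hx
  refine ⟨P - 1, sub_mem hP (one_mem _), Q - 1, sub_mem hQ (one_mem _), hP1, hQ1, ?_⟩
  rw [← hPQ]; ring

lemma mul_split_of_near {x g : F0 C} (h0 : x ≠ 0) (hx : ‖x - g‖ < ‖x‖) :
    g ≠ 0 ∧ ∃ u ∈ A1 C, ∃ v ∈ A2 C, ‖u‖ < 1 ∧ ‖v‖ < 1 ∧ x = g * (1 + u) * (1 + v) := by
  have hg : g ≠ 0 := by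
    rintro rfl
    rw [sub_zero] at hx; exact lt_irrefl _ hx
  have hgx : ‖g‖ = ‖x‖ := by
    have h1 := IsUltrametricDist.norm_add_eq_max_of_norm_ne_norm (x := g - x) (y := x)
      (by rw [norm_sub_rev]; exact hx.ne)
    rw [sub_add_cancel, norm_sub_rev, max_eq_right hx.le] at h1
    exact h1
  have hlt : ‖x / g - 1‖ < 1 := by
    have : x / g - 1 = (x - g) / g := by field_simp
    rw [this, norm_div, hgx, div_lt_one (norm_pos_iff.mpr h0)]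
    exact hx
  obtain ⟨u, hu, v, hv, hu1, hv1, hxe⟩ := mul_split hlt
  refine ⟨hg, u, hu, v, hv, hu1.trans_lt hlt, hv1.trans_lt hlt, ?_⟩
  rw [mul_assoc, ← hxe]
  field_simp

/-- `x ∈ F0`: `x = g (1+h1)(1+h2)` with `g` a rational function. -/
theorem exists_mul_split_F0 {x : F0 C} (h0 : x ≠ 0) : ∃ g : RatFunc C, g ≠ 0 ∧
    ∃ h₁ ∈ A1 C, ‖h₁‖ < 1 ∧ ∃ h₂ ∈ A2 C, ‖h₂‖ < 1 ∧
      x = algebraMap (RatFunc C) (F0 C) g * (1 + h₁) * (1 + h₂) := by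
  obtain ⟨g, hg⟩ := exists_rat_near x (norm_pos_iff.mpr h0)
  obtain ⟨hg0, u, hu, v, hv, hu1, hv1, hx⟩ := mul_split_of_near h0 hg
  refine ⟨g, ?_, u, hu, hu1, v, hv, hv1, hx⟩
  rintro rfl
  exact hg0 (map_zero _)

omit [CompleteSpace C] [IsAlgClosed C] in
lemma aeval_mul_inv_pow_mem {P : C[X]} {d : ℕ} (hd : P.natDegree ≤ d) :
    aeval (tt C) P * (tt C)⁻¹ ^ d ∈ A2 C := by
  rw [inv_pow, ← div_eq_mul_inv]
  have h : (tt C) ^ d = aeval (tt C) (X ^ d : C[X]) := by rw [map_pow, aeval_X]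
  rw [h]
  refine div_mem_A2 (monic_X_pow d) ?_ (gp_le_iff.mp (gp_X_pow d).le)
  rw [degree_X_pow]
  exact natDegree_le_iff_degree_le.mp hd

/-- Weierstrass preparation on the disc. -/
theorem weierstrass_A1 {x : F0 C} (hx : x ∈ A1 C) (h0 : x ≠ 0) :
    ∃ P : C[X], P.Monic ∧ (∀ i, ‖P.coeff i‖ ≤ 1) ∧ (∀ a ∈ P.roots, ‖a‖ ≤ 1) ∧
      ∃ c : C, c ≠ 0 ∧ ∃ h ∈ A1 C, ‖h‖ < 1 ∧
        x = aeval (tt C) P * algebraMap C (F0 C) c * (1 + h) := by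
  obtain ⟨g, hg⟩ := exists_poly_near hx (norm_pos_iff.mpr h0)
  obtain ⟨hg0, u, hu, v, hv, hu1, hv1, hxe⟩ := mul_split_of_near h0 hg
  obtain ⟨hi, -⟩ := exists_inv_A1 hu hu1
  have hu0 : 1 + u ≠ 0 := one_add_ne_zero' hu1
  have hy1 : x * (1 + u)⁻¹ ∈ A1 C := mul_mem hx hi
  have hye : x * (1 + u)⁻¹ = aeval (tt C) g * (1 + v) := by
    rw [hxe]; field_simp
  have hy2 : x * (1 + u)⁻¹ * (tt C)⁻¹ ^ g.natDegree ∈ A2 C := by
    rw [hye, mul_right_comm]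
    exact mul_mem (aeval_mul_inv_pow_mem le_rfl) (add_mem (one_mem _) hv)
  obtain ⟨R, hR, hRe⟩ := exists_poly_of_mem _ hy1 hy2
  have hR0 : R ≠ 0 := by
    rintro rfl
    rw [map_zero] at hRe
    exact (mul_ne_zero h0 (inv_ne_zero hu0)) hRe
  obtain ⟨c, S, Q, hc, hS, hS1, hSr, hQ, -, -, hD⟩ := exists_factor R hR0
  refine ⟨S, hS, gp_le_iff.mp hS1, hSr, c, hc, aeval (tt C) (Q - 1) * (1 + u) + u, ?_, ?_, ?_⟩
  · exact add_mem (mul_mem (aeval_mem_A1 _) (add_mem (one_mem _) hu)) hu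
  · have h1 : ‖1 + u‖ = 1 := norm_eq_one_of_sub_lt (by rwa [add_sub_cancel_left])
    refine (IsUltrametricDist.norm_add_le_max _ _).trans_lt (max_lt ?_ hu1)
    rw [norm_mul, h1, mul_one, norm_aeval]; exact hQ
  · have h2 : x = aeval (tt C) R * (1 + u) := by rw [← hRe]; field_simp
    rw [h2, hD, map_mul, map_mul, aeval_C, map_sub, map_one]
    ring

/-- Weierstrass preparation outside the disc. -/
theorem weierstrass_A2 {x : F0 C} (hx : x ∈ A2 C) (h0 : x ≠ 0) :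
    ∃ g ∈ pre2 C, g ≠ 0 ∧ ∃ h ∈ A2 C, ‖h‖ < 1 ∧
      x = algebraMap (RatFunc C) (F0 C) g * (1 + h) := by
  obtain ⟨g, ⟨N, D, hD, hd, h1, rfl⟩, hg⟩ := exists_pre2_near hx (norm_pos_iff.mpr h0)
  obtain ⟨hg0, u, hu, v, hv, hu1, hv1, hxe⟩ := mul_split_of_near h0 hg
  obtain ⟨hi, -⟩ := exists_inv_A2 hv hv1
  have hv0 : 1 + v ≠ 0 := one_add_ne_zero' hv1
  have hD0 : aeval (tt C) D ≠ 0 := fun h => hD.ne_zero (aeval_inj.mp h)
  set y := x * (1 + v)⁻¹ with hy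
  have hy2 : y ∈ A2 C := mul_mem hx hi
  have hye : y = aeval (tt C) N / aeval (tt C) D * (1 + u) := by
    rw [hy, hxe, map_div₀, algebraMap_poly, algebraMap_poly]; field_simp
  have hDy : aeval (tt C) D * y = aeval (tt C) N * (1 + u) := by
    rw [hye]; field_simp
  have m1 : aeval (tt C) D * y ∈ A1 C := by
    rw [hDy]; exact mul_mem (aeval_mem_A1 _) (add_mem (one_mem _) hu)
  have m2 : aeval (tt C) D * y * (tt C)⁻¹ ^ D.natDegree ∈ A2 C := by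
    rw [mul_right_comm]
    exact mul_mem (aeval_mul_inv_pow_mem le_rfl) hy2
  obtain ⟨R, hR, hRe⟩ := exists_poly_of_mem _ m1 m2
  have hyR : y = aeval (tt C) R / aeval (tt C) D := by
    rw [← hRe]; field_simp
  have hy0 : y ≠ 0 := mul_ne_zero h0 (inv_ne_zero hv0)
  refine ⟨algebraMap _ _ R / algebraMap _ _ D, ⟨R, D, hD, ?_, h1, rfl⟩, ?_, v, hv, hv1, ?_⟩
  · rw [degree_eq_natDegree hD.ne_zero]
    exact natDegree_le_iff_degree_le.mp hR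
  · intro h
    apply hy0
    have := congrArg (algebraMap (RatFunc C) (F0 C)) h
    rw [map_div₀, algebraMap_poly, algebraMap_poly, map_zero] at this
    rw [hyR, this]
  · rw [map_div₀, algebraMap_poly, algebraMap_poly, ← hyR, hy]
    field_simp

end Weier

end P025H373
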