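import Vale.Agent.P025.R2.H373.Gauss4

/-!
# The fields `F1`, `F2` and `F1 ∩ F2 = C(t)`
-/

open Polynomial Filter Topology

universe u

namespace P025H373

section Fields

variable {C : Type u} [NormedField C] [IsUltrametricDist C] [CompleteSpace C] [IsAlgClosed C]

lemma alg_ne_zero {g : RatFunc C} (hg : g ≠ 0) : algebraMap (RatFunc C) (F0 C) g ≠ 0 := by
  rwa [Ne, map_eq_zero]

/-- key inversion property -/
lemma inv_A1 {x : F0 C} (hx : x ∈ A1 C) (h0 : x ≠ 0) :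
    ∃ g : RatFunc C, g ≠ 0 ∧ ∃ h ∈ A1 C, ‖h‖ < 1 ∧
      x = algebraMap (RatFunc C) (F0 C) g * (1 + h) := by
  obtain ⟨P, hP, -, -, c, hc, h, hh, h1, hxe⟩ := weierstrass_A1 hx h0
  refine ⟨algebraMap _ _ (P * Polynomial.C c), ?_, h, hh, h1, ?_⟩
  · exact RatFunc.algebraMap_ne_zero (mul_ne_zero hP.ne_zero (C_ne_zero.mpr hc))
  · rw [algebraMap_poly, map_mul, aeval_C, hxe]

lemma algebraMap_mem_A2_of {g : RatFunc C} (hg : g ∈ pre2 C) :
    algebraMap (RatFunc C) (F0 C) g ∈ A2 C := algebraMap_mem_A2 hg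

/-- every rational function is a quotient of elements of `pre2`. -/
lemma exists_pre2_mul (f : RatFunc C) : ∃ g ∈ pre2 C, g ≠ 0 ∧ g * f ∈ pre2 C := by
  set n := f.num.natDegree + f.denom.natDegree with hn
  have hX : (algebraMap C[X] (RatFunc C) (X ^ n)) ≠ 0 :=
    RatFunc.algebraMap_ne_zero (pow_ne_zero _ X_ne_zero)
  have hd : (algebraMap C[X] (RatFunc C) f.denom) ≠ 0 :=
    RatFunc.algebraMap_ne_zero f.denom_ne_zero
  refine ⟨algebraMap _ _ f.denom / algebraMap _ _ (X ^ n), ⟨f.denom, X ^ n, monic_X_pow n, ?_,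
    gp_le_iff.mp (gp_X_pow n).le, rfl⟩, div_ne_zero hd hX, f.num, X ^ n, monic_X_pow n, ?_,
    gp_le_iff.mp (gp_X_pow n).le, ?_⟩
  · rw [degree_X_pow]
    exact natDegree_le_iff_degree_le.mp (by omega)
  · rw [degree_X_pow]
    exact natDegree_le_iff_degree_le.mp (by omega)
  · conv_lhs => rw [← f.num_div_denom]
    rw [RatFunc.num_div_denom]
    conv_lhs => enter [2]; rw [← f.num_div_denom]
    field_simp

variable (C) in
/-- `F1` as an intermediate field with explicit carrier. -/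
noncomputable def F1' : IntermediateField (RatFunc C) (F0 C) where
  carrier := {x | ∃ D : C[X], D ≠ 0 ∧ aeval (tt C) D * x ∈ A1 C}
  mul_mem' := by
    rintro x y ⟨D, hD, hx⟩ ⟨E, hE, hy⟩
    refine ⟨D * E, mul_ne_zero hD hE, ?_⟩
    rw [map_mul, mul_mul_mul_comm]
    exact mul_mem hx hy
  add_mem' := by
    rintro x y ⟨D, hD, hx⟩ ⟨E, hE, hy⟩
    refine ⟨D * E, mul_ne_zero hD hE, ?_⟩
    have : aeval (tt C) (D * E) * (x + y) = aeval (tt C) E * (aeval (tt C) D * x) +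
        aeval (tt C) D * (aeval (tt C) E * y) := by rw [map_mul]; ring
    rw [this]
    exact add_mem (mul_mem (aeval_mem_A1 _) hx) (mul_mem (aeval_mem_A1 _) hy)
  algebraMap_mem' f := by
    refine ⟨f.denom, f.denom_ne_zero, ?_⟩
    have hd : (algebraMap C[X] (RatFunc C) f.denom) ≠ 0 :=
      RatFunc.algebraMap_ne_zero f.denom_ne_zero
    have : aeval (tt C) f.denom * algebraMap (RatFunc C) (F0 C) f = aeval (tt C) f.num := by
      rw [← algebraMap_poly, ← algebraMap_poly, ← map_mul]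
      congr 1
      nth_rw 2 [← f.num_div_denom]
      field_simp
    rw [this]; exact aeval_mem_A1 _
  inv_mem' := by
    rintro x ⟨D, hD, hx⟩
    by_cases h0 : x = 0
    · rw [h0, inv_zero]; exact ⟨1, one_ne_zero, by rw [mul_zero]; exact zero_mem _⟩
    have hD0 : aeval (tt C) D ≠ 0 := fun h => hD (aeval_inj.mp h)
    obtain ⟨P, hP, -, -, c, hc, h, hh, h1, hxe⟩ := weierstrass_A1 hx (mul_ne_zero hD0 h0)
    refine ⟨P, hP.ne_zero, ?_⟩
    have hP0 : aeval (tt C) P ≠ 0 := fun h => hP.ne_zero (aeval_inj.mp h)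
    have hc0 : algebraMap C (F0 C) c ≠ 0 := by rwa [Ne, map_eq_zero]
    have hh0 : 1 + h ≠ 0 := one_add_ne_zero' h1
    have e : aeval (tt C) P * x⁻¹ = aeval (tt C) D * algebraMap C (F0 C) c⁻¹ * (1 + h)⁻¹ := by
      rw [map_inv₀]
      field_simp
      linear_combination (-1 : F0 C) * hxe
    rw [e]
    exact mul_mem (mul_mem (aeval_mem_A1 _) (algebraMap_mem _ _)) (exists_inv_A1 hh h1).1

lemma F1_eq : F1 C = F1' C := by
  apply le_antisymm
  · refine IntermediateField.adjoin_le_iff.mpr fun x hx => ?_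
    exact ⟨1, one_ne_zero, by rw [map_one, one_mul]; exact hx⟩
  · rintro x ⟨D, hD, hx⟩
    have hD0 : aeval (tt C) D ≠ 0 := fun h => hD (aeval_inj.mp h)
    have h1 : aeval (tt C) D * x ∈ F1 C := IntermediateField.subset_adjoin _ _ hx
    have h2 : aeval (tt C) D ∈ F1 C := by
      rw [← algebraMap_poly]; exact IntermediateField.algebraMap_mem _ _
    have := mul_mem (inv_mem h2) h1
    rwa [inv_mul_cancel_left₀ hD0] at this

theorem A1_le_F1 {x : F0 C} (hx : x ∈ A1 C) : x ∈ F1 C := IntermediateField.subset_adjoin _ _ hx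
theorem A2_le_F2 {x : F0 C} (hx : x ∈ A2 C) : x ∈ F2 C := IntermediateField.subset_adjoin _ _ hx

lemma mem_F1 {x : F0 C} : x ∈ F1 C ↔ ∃ D : C[X], D ≠ 0 ∧ aeval (tt C) D * x ∈ A1 C := by
  rw [F1_eq]; rfl

/-- elements of `F1` are `a / P`, `a ∈ A1`, `P` a monic polynomial with roots in the disc. -/
theorem mem_F1_iff_div {x : F0 C} : x ∈ F1 C ↔
    ∃ a ∈ A1 C, ∃ P : C[X], P.Monic ∧ (∀ a ∈ P.roots, ‖a‖ ≤ 1) ∧ x = a / aeval (tt C) P := by
  rw [mem_F1]
  constructor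
  · rintro ⟨D, hD, hx⟩
    obtain ⟨c, S, Q, hc, hS, hS1, hSr, hQ, -, -, hDe⟩ := exists_factor D hD
    have hQ0 : ‖aeval (tt C) (Q - 1)‖ < 1 := by rw [norm_aeval]; exact hQ
    have hQi := (exists_inv_A1 (aeval_mem_A1 (Q - 1)) hQ0).1
    have hQn := one_add_ne_zero' hQ0
    rw [map_sub, map_one, add_sub_cancel] at hQi hQn
    have hS0 : aeval (tt C) S ≠ 0 := fun h => hS.ne_zero (aeval_inj.mp h)
    have hc0 : algebraMap C (F0 C) c ≠ 0 := by rwa [Ne, map_eq_zero]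
    refine ⟨aeval (tt C) D * x * algebraMap C (F0 C) c⁻¹ * (aeval (tt C) Q)⁻¹,
      mul_mem (mul_mem hx (algebraMap_mem _ _)) hQi, S, hS, hSr, ?_⟩
    rw [hDe, map_mul, map_mul, aeval_C, map_inv₀]
    field_simp
  · rintro ⟨a, ha, P, hP, -, rfl⟩
    refine ⟨P, hP.ne_zero, ?_⟩
    have hP0 : aeval (tt C) P ≠ 0 := fun h => hP.ne_zero (aeval_inj.mp h)
    rwa [mul_div_cancel₀ _ hP0]

theorem mem_F1_iff {x : F0 C} (h0 : x ≠ 0) : x ∈ F1 C ↔
    ∃ g : RatFunc C, g ≠ 0 ∧ ∃ h ∈ A1 C, ‖h‖ < 1 ∧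
      x = algebraMap (RatFunc C) (F0 C) g * (1 + h) := by
  constructor
  · intro hx
    obtain ⟨D, hD, hx⟩ := mem_F1.mp hx
    have hD0 : aeval (tt C) D ≠ 0 := fun h => hD (aeval_inj.mp h)
    obtain ⟨g, hg, h, hh, h1, hxe⟩ := inv_A1 hx (mul_ne_zero hD0 h0)
    refine ⟨g / algebraMap _ _ D, div_ne_zero hg (RatFunc.algebraMap_ne_zero hD), h, hh, h1, ?_⟩
    rw [map_div₀, algebraMap_poly, div_mul_eq_mul_div, ← hxe]
    field_simp
  · rintro ⟨g, -, h, hh, -, rfl⟩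
    exact mul_mem (IntermediateField.algebraMap_mem _ _)
      (add_mem (one_mem _) (A1_le_F1 hh))

variable (C) in
/-- `F2` as an intermediate field with explicit carrier. -/
noncomputable def F2' : IntermediateField (RatFunc C) (F0 C) where
  carrier := {x | ∃ g ∈ pre2 C, g ≠ 0 ∧ algebraMap (RatFunc C) (F0 C) g * x ∈ A2 C}
  mul_mem' := by
    rintro x y ⟨D, hD', hD, hx⟩ ⟨E, hE', hE, hy⟩
    refine ⟨D * E, mul_mem hD' hE', mul_ne_zero hD hE, ?_⟩
    rw [map_mul, mul_mul_mul_comm]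
    exact mul_mem hx hy
  add_mem' := by
    rintro x y ⟨D, hD', hD, hx⟩ ⟨E, hE', hE, hy⟩
    refine ⟨D * E, mul_mem hD' hE', mul_ne_zero hD hE, ?_⟩
    have : algebraMap (RatFunc C) (F0 C) (D * E) * (x + y) =
        algebraMap (RatFunc C) (F0 C) E * (algebraMap (RatFunc C) (F0 C) D * x) +
        algebraMap (RatFunc C) (F0 C) D * (algebraMap (RatFunc C) (F0 C) E * y) := by
      rw [map_mul]; ring
    rw [this]
    exact add_mem (mul_mem (algebraMap_mem_A2 hE') hx) (mul_mem (algebraMap_mem_A2 hD') hy)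
  algebraMap_mem' f := by
    obtain ⟨g, hg, hg0, hgf⟩ := exists_pre2_mul f
    exact ⟨g, hg, hg0, by rw [← map_mul]; exact algebraMap_mem_A2 hgf⟩
  inv_mem' := by
    rintro x ⟨D, hD', hD, hx⟩
    by_cases h0 : x = 0
    · rw [h0, inv_zero]; exact ⟨1, one_mem _, one_ne_zero, by rw [mul_zero]; exact zero_mem _⟩
    have hD0 := alg_ne_zero hD
    obtain ⟨P, hP, hP0, h, hh, h1, hxe⟩ := weierstrass_A2 hx (mul_ne_zero hD0 h0)
    refine ⟨P, hP, hP0, ?_⟩
    have hP0' := alg_ne_zero hP0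
    have hh0 : 1 + h ≠ 0 := one_add_ne_zero' h1
    have e : algebraMap (RatFunc C) (F0 C) P * x⁻¹ =
        algebraMap (RatFunc C) (F0 C) D * (1 + h)⁻¹ := by
      field_simp
      linear_combination (-1 : F0 C) * hxe
    rw [e]
    exact mul_mem (algebraMap_mem_A2 hD') (exists_inv_A2 hh h1).1

lemma F2_eq : F2 C = F2' C := by
  apply le_antisymm
  · refine IntermediateField.adjoin_le_iff.mpr fun x hx => ?_
    exact ⟨1, one_mem _, one_ne_zero, by rw [map_one, one_mul]; exact hx⟩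
  · rintro x ⟨D, hD', hD, hx⟩
    have hD0 := alg_ne_zero hD
    have h1 : algebraMap (RatFunc C) (F0 C) D * x ∈ F2 C :=
      IntermediateField.subset_adjoin _ _ hx
    have h2 : algebraMap (RatFunc C) (F0 C) D ∈ F2 C := IntermediateField.algebraMap_mem _ _
    have := mul_mem (inv_mem h2) h1
    rwa [inv_mul_cancel_left₀ hD0] at this

lemma mem_F2 {x : F0 C} : x ∈ F2 C ↔
    ∃ g ∈ pre2 C, g ≠ 0 ∧ algebraMap (RatFunc C) (F0 C) g * x ∈ A2 C := by
  rw [F2_eq]; rfl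

theorem mem_F2_iff {x : F0 C} (h0 : x ≠ 0) : x ∈ F2 C ↔
    ∃ g : RatFunc C, g ≠ 0 ∧ ∃ h ∈ A2 C, ‖h‖ < 1 ∧
      x = algebraMap (RatFunc C) (F0 C) g * (1 + h) := by
  constructor
  · intro hx
    obtain ⟨D, hD', hD, hx⟩ := mem_F2.mp hx
    have hD0 := alg_ne_zero hD
    obtain ⟨g, hg, hg0, h, hh, h1, hxe⟩ := weierstrass_A2 hx (mul_ne_zero hD0 h0)
    refine ⟨g / D, div_ne_zero hg0 hD, h, hh, h1, ?_⟩
    rw [map_div₀, div_mul_eq_mul_div, ← hxe]
    field_simp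
  · rintro ⟨g, -, h, hh, -, rfl⟩
    exact mul_mem (IntermediateField.algebraMap_mem _ _)
      (add_mem (one_mem _) (A2_le_F2 hh))

/-- (1.4) -/
theorem F1_inf_F2 : F1 C ⊓ F2 C = ⊥ := by
  rw [eq_bot_iff]
  intro x hx
  rw [IntermediateField.mem_inf] at hx
  rw [IntermediateField.mem_bot]
  by_cases h0 : x = 0
  · exact ⟨0, by rw [map_zero, h0]⟩
  obtain ⟨g1, hg1, h1, hh1, hn1, he1⟩ := (mem_F1_iff h0).mp hx.1
  obtain ⟨g2, hg2, h2, hh2, hn2, he2⟩ := (mem_F2_iff h0).mp hx.2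
  have hg1' := alg_ne_zero hg1
  have hg2' := alg_ne_zero hg2
  set r : RatFunc C := g2 / g1 with hr
  have hr0 : r ≠ 0 := div_ne_zero hg2 hg1
  have hre : algebraMap (RatFunc C) (F0 C) r * (1 + h2) = 1 + h1 := by
    rw [hr, map_div₀, div_mul_eq_mul_div, ← he2, he1]
    field_simp
  -- factor numerator and denominator of `r`
  obtain ⟨c, S, Q, hc, hS, hS1, hSr, hQ, -, -, hDe⟩ := exists_factor r.num
    (RatFunc.num_ne_zero hr0)
  obtain ⟨c', S', Q', hc', hS', hS1', hSr', hQ', -, -, hDe'⟩ := exists_factor r.denom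
    r.denom_ne_zero
  have hQ0 : ‖aeval (tt C) (Q - 1)‖ < 1 := by rw [norm_aeval]; exact hQ
  have hQi := (exists_inv_A1 (aeval_mem_A1 (Q - 1)) hQ0).1
  have hQn := one_add_ne_zero' hQ0
  have hQ0' : ‖aeval (tt C) (Q' - 1)‖ < 1 := by rw [norm_aeval]; exact hQ'
  have hQn' := one_add_ne_zero' hQ0'
  rw [map_sub, map_one, add_sub_cancel] at hQi hQn hQn'
  have hS0 : aeval (tt C) S ≠ 0 := fun h => hS.ne_zero (aeval_inj.mp h)
  have hS0' : aeval (tt C) S' ≠ 0 := fun h => hS'.ne_zero (aeval_inj.mp h)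
  have hc0 : algebraMap C (F0 C) c ≠ 0 := by rwa [Ne, map_eq_zero]
  have hc0' : algebraMap C (F0 C) c' ≠ 0 := by rwa [Ne, map_eq_zero]
  have hrr : algebraMap (RatFunc C) (F0 C) r =
      (algebraMap C (F0 C) c * (aeval (tt C) S * aeval (tt C) Q)) /
      (algebraMap C (F0 C) c' * (aeval (tt C) S' * aeval (tt C) Q')) := by
    rw [← aeval_C (tt C) c, ← aeval_C (tt C) c', ← map_mul, ← map_mul, ← map_mul, ← map_mul,
      ← hDe, ← hDe', ← algebraMap_poly, ← algebraMap_poly, ← map_div₀, r.num_div_denom]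
  -- `z = S (1 + h2)` is a polynomial
  have hz : aeval (tt C) S * (1 + h2) = aeval (tt C) S' * aeval (tt C) Q' * (1 + h1) *
      (aeval (tt C) Q)⁻¹ * algebraMap C (F0 C) (c' / c) := by
    rw [← hre, hrr, map_div₀]
    field_simp
  have m1 : aeval (tt C) S * (1 + h2) ∈ A1 C := by
    rw [hz]
    exact mul_mem (mul_mem (mul_mem (mul_mem (aeval_mem_A1 _) (aeval_mem_A1 _))
      (add_mem (one_mem _) hh1)) hQi) (algebraMap_mem _ _)
  have m2 : aeval (tt C) S * (1 + h2) * (tt C)⁻¹ ^ S.natDegree ∈ A2 C := by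
    rw [mul_right_comm]
    exact mul_mem (aeval_mul_inv_pow_mem le_rfl) (add_mem (one_mem _) hh2)
  obtain ⟨R, hR, hRe⟩ := exists_poly_of_mem _ m1 m2
  refine ⟨g2 * (algebraMap _ _ R / algebraMap _ _ S), ?_⟩
  rw [map_mul, map_div₀, algebraMap_poly, algebraMap_poly, ← hRe, he2]
  field_simp

end Fields

end P025H373
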